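import Mathlib

open scoped InnerProductSpace ComplexConjugate
open Filter Topology

namespace Vale.Agent.Lib.P078

variable {H : Type*} [NormedAddCommGroup H] [InnerProductSpace ℂ H] [CompleteSpace H]

/-- A self-adjoint subalgebra `A` of `B(H)` is a maximal abelian self-adjoint subalgebra (MASA) of
`B(H)` when it is equal to its own commutant. -/
def IsMasa (A : StarSubalgebra ℂ (H →L[ℂ] H)) : Prop :=
  Set.centralizer (A : Set (H →L[ℂ] H)) = A

/-- `A` is diffuse: it has no minimal projection, that is, every nonzero projection `p` of `A`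
has a subprojection `e` in `A` different from `0` and from `p`. -/
def IsDiffuse (A : StarSubalgebra ℂ (H →L[ℂ] H)) : Prop :=
  ∀ p ∈ A, IsStarProjection p → p ≠ 0 →
    ∃ e ∈ A, IsStarProjection e ∧ e ≠ 0 ∧ e ≠ p ∧ e * p = e

/-- A partition in `A`: mutually orthogonal projections of `A` with sum `1`; zeros are allowed. -/
structure IsPartitionIn (A : StarSubalgebra ℂ (H →L[ℂ] H)) {ι : Type*} [Fintype ι]
    (P : ι → H →L[ℂ] H) : Prop where
  mem : ∀ i, P i ∈ A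
  isProj : ∀ i, IsStarProjection (P i)
  orth : ∀ i j, i ≠ j → P i * P j = 0
  sum_eq_one : ∑ i, P i = 1

/-- The pinching `S_P(x) = ∑ i, p i * x * p i`. -/
noncomputable def pinching {ι : Type*} [Fintype ι] (P : ι → H →L[ℂ] H) (x : H →L[ℂ] H) :
    H →L[ℂ] H :=
  ∑ i, P i * x * P i

/-- `x` is `(ε, r)` so-pavable over `A`, with ambient algebra `M = B(H)`: for every finite set `F`
of vectors and every `δ > 0` there are a partition `P` in `A` with `r` pieces, a self-adjoint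
`a ∈ A` with `‖a‖ ≤ ‖x‖` and a projection `q` with `‖(1 - q) ξ‖ < δ` for `ξ ∈ F` and
`‖q (S_P(x) - a) q‖ ≤ ε ‖x‖`. -/
def SoPavable (A : StarSubalgebra ℂ (H →L[ℂ] H)) (ε : ℝ) (r : ℕ) (x : H →L[ℂ] H) : Prop :=
  ∀ (F : Finset H) (δ : ℝ), 0 < δ →
    ∃ P : Fin r → (H →L[ℂ] H), IsPartitionIn A P ∧
      ∃ a ∈ A, IsSelfAdjoint a ∧ ‖a‖ ≤ ‖x‖ ∧
        ∃ q : H →L[ℂ] H, IsStarProjection q ∧
          (∀ ξ ∈ F, ‖(1 - q) ξ‖ < δ) ∧
          ‖q * (pinching P x - a) * q‖ ≤ ε * ‖x‖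

/-! ### Elementary facts on projections -/

theorem inner_selfAdjoint {T : H →L[ℂ] H} (hT : IsSelfAdjoint T) (v w : H) :
    ⟪T v, w⟫_ℂ = ⟪v, T w⟫_ℂ := by
  have h := ContinuousLinearMap.isSelfAdjoint_iff_isSymmetric.mp hT
  exact h v w

theorem proj_apply_apply {p : H →L[ℂ] H} (hp : IsStarProjection p) (v : H) : p (p v) = p v := by
  have h := hp.isIdempotentElem
  have := congrArg (fun T : H →L[ℂ] H => T v) h.eq
  simpa using this

theorem inner_proj_self {p : H →L[ℂ] H} (hp : IsStarProjection p) (v w : H) :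
    ⟪p v, p w⟫_ℂ = ⟪v, p w⟫_ℂ := by
  rw [inner_selfAdjoint hp.isSelfAdjoint, proj_apply_apply hp]

theorem norm_proj_sq {p : H →L[ℂ] H} (hp : IsStarProjection p) (v : H) :
    ‖p v‖ ^ 2 = (⟪v, p v⟫_ℂ).re := by
  rw [← inner_proj_self hp, inner_self_eq_norm_sq_to_K]
  norm_cast

theorem proj_norm_le {p : H →L[ℂ] H} (hp : IsStarProjection p) (v : H) : ‖p v‖ ≤ ‖v‖ := by
  by_cases h : p v = 0
  · simp [h]
  have h1 : ‖p v‖ ^ 2 ≤ ‖v‖ * ‖p v‖ := by
    rw [norm_proj_sq hp]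
    calc (⟪v, p v⟫_ℂ).re ≤ ‖⟪v, p v⟫_ℂ‖ := Complex.re_le_norm _
      _ ≤ ‖v‖ * ‖p v‖ := norm_inner_le_norm _ _
  have h2 : 0 < ‖p v‖ := norm_pos_iff.mpr h
  nlinarith

omit [CompleteSpace H] in
theorem proj_mul_apply {p e : H →L[ℂ] H} (h : p * e = p) (v : H) : p (e v) = p v := by
  have := congrArg (fun T : H →L[ℂ] H => T v) h
  simpa using this

namespace IsPartitionIn

variable {A : StarSubalgebra ℂ (H →L[ℂ] H)} {ι : Type*} [Fintype ι] {c : ι → H →L[ℂ] H}

theorem sum_apply (hc : IsPartitionIn A c) (v : H) : ∑ j, c j v = v := by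
  have := congrArg (fun T : H →L[ℂ] H => T v) hc.sum_eq_one
  simpa using this

theorem apply_apply_of_ne (hc : IsPartitionIn A c) {i j : ι} (h : i ≠ j) (v : H) :
    c i (c j v) = 0 := by
  have := congrArg (fun T : H →L[ℂ] H => T v) (hc.orth i j h)
  simpa using this

theorem inner_apply_of_ne (hc : IsPartitionIn A c) {i j : ι} (h : i ≠ j) (v w : H) :
    ⟪c i v, c j w⟫_ℂ = 0 := by
  rw [inner_selfAdjoint (hc.isProj i).isSelfAdjoint, hc.apply_apply_of_ne h, inner_zero_right]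

theorem sum_norm_sq (hc : IsPartitionIn A c) (v : H) : ∑ j, ‖c j v‖ ^ 2 = ‖v‖ ^ 2 := by
  classical
  have h1 : ‖v‖ ^ 2 = (⟪v, v⟫_ℂ).re := by
    rw [inner_self_eq_norm_sq_to_K]; norm_cast
  have h2 : ⟪v, v⟫_ℂ = ∑ j, ⟪c j v, v⟫_ℂ := by
    rw [← sum_inner, hc.sum_apply v]
  rw [h1, h2, Complex.re_sum]
  refine Finset.sum_congr rfl fun j _ => ?_
  rw [inner_selfAdjoint (hc.isProj j).isSelfAdjoint, norm_proj_sq (hc.isProj j)]

/-- A decomposition of a vector: norm of a sum of vectors living in the ranges of the cells. -/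
theorem norm_sq_of_mem (hc : IsPartitionIn A c) (u : ι → H) (hu : ∀ j, c j (u j) = u j) :
    ‖∑ j, u j‖ ^ 2 = ∑ j, ‖u j‖ ^ 2 := by
  classical
  rw [← hc.sum_norm_sq]
  refine Finset.sum_congr rfl fun j _ => ?_
  congr 2
  rw [map_sum, Finset.sum_eq_single j]
  · exact hu j
  · intro i _ hi
    rw [← hu i, hc.apply_apply_of_ne hi.symm]
  · simp

/-- The pinching by a partition does not increase the norm. -/
theorem norm_pinching_apply_le (hc : IsPartitionIn A c) (x : H →L[ℂ] H) (v : H) :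
    ‖pinching c x v‖ ≤ ‖x‖ * ‖v‖ := by
  classical
  have h1 : pinching c x v = ∑ j, c j (x (c j v)) := by
    simp [pinching]
  have h2 : ‖pinching c x v‖ ^ 2 = ∑ j, ‖c j (x (c j v))‖ ^ 2 := by
    rw [h1]
    exact hc.norm_sq_of_mem _ fun j => proj_apply_apply (hc.isProj j) _
  have h3 : ∑ j, ‖c j (x (c j v))‖ ^ 2 ≤ ∑ j, (‖x‖ * ‖c j v‖) ^ 2 := by
    refine Finset.sum_le_sum fun j _ => ?_
    have h4 : ‖c j (x (c j v))‖ ≤ ‖x‖ * ‖c j v‖ :=
      (proj_norm_le (hc.isProj j) _).trans (x.le_opNorm _)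
    exact pow_le_pow_left₀ (norm_nonneg _) h4 2
  have h5 : ∑ j, (‖x‖ * ‖c j v‖) ^ 2 = (‖x‖ * ‖v‖) ^ 2 := by
    simp_rw [mul_pow]
    rw [← Finset.mul_sum, hc.sum_norm_sq]
  have h6 : ‖pinching c x v‖ ^ 2 ≤ (‖x‖ * ‖v‖) ^ 2 := by
    rw [h2]; exact h3.trans h5.le
  exact (pow_le_pow_iff_left₀ (norm_nonneg _) (by positivity) (by norm_num)).mp h6

theorem norm_pinching_le (hc : IsPartitionIn A c) (x : H →L[ℂ] H) :
    ‖pinching c x‖ ≤ ‖x‖ :=
  ContinuousLinearMap.opNorm_le_bound _ (norm_nonneg _) fun v => hc.norm_pinching_apply_le x v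

theorem pinching_isSelfAdjoint (hc : IsPartitionIn A c) {x : H →L[ℂ] H} (hx : IsSelfAdjoint x) :
    IsSelfAdjoint (pinching c x) := by
  unfold pinching
  refine isSelfAdjoint_sum _ fun j _ => ?_
  have hj := (hc.isProj j).isSelfAdjoint
  rw [isSelfAdjoint_iff, star_mul, star_mul, hj.star_eq, hx.star_eq, mul_assoc]

end IsPartitionIn

end Vale.Agent.Lib.P078
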