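import Mathlib

open scoped ComplexConjugate

namespace Vale.Agent.Lib.P078

variable {ι : Type*} [Fintype ι] [DecidableEq ι] {r : ℕ}

/-- The centred indicator of the event that `j` and `k` get the same colour under `κ`. -/
noncomputable def chi (r : ℕ) (κ : ι → Fin r) (j k : ι) : ℝ :=
  (if κ j = κ k then 1 else 0) - 1 / r

omit [Fintype ι] [DecidableEq ι] in
theorem chi_comm (κ : ι → Fin r) (j k : ι) : chi r κ j k = chi r κ k j := by
  unfold chi
  by_cases h : κ j = κ k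
  · simp [h]
  · simp [h, Ne.symm h]

omit [Fintype ι] [DecidableEq ι] in
theorem abs_chi_le (hr : 0 < r) (κ : ι → Fin r) (j k : ι) : |chi r κ j k| ≤ 1 := by
  unfold chi
  have h1 : (0:ℝ) < r := by exact_mod_cast hr
  have h2 : (1:ℝ) / r ≤ 1 := by
    rw [div_le_one h1]; exact_mod_cast hr
  have h3 : 0 < (1:ℝ) / r := by positivity
  by_cases h : κ j = κ k
  · simp only [h, if_true, abs_le]; constructor <;> linarith
  · simp only [h, if_false, abs_le]; constructor <;> linarith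

/-- Resampling one coordinate preserves the uniform average. -/
theorem sum_update [NeZero r] (z : ι) (g : (ι → Fin r) → ℝ) :
    ∑ κ : ι → Fin r, ∑ c : Fin r, g (Function.update κ z c) = r * ∑ κ, g κ := by
  let e : (ι → Fin r) × Fin r → (ι → Fin r) × Fin r := fun p => (Function.update p.1 z p.2, p.1 z)
  have he : Function.Involutive e := by
    rintro ⟨κ, c⟩
    simp [e]
  have h1 : ∑ p : (ι → Fin r) × Fin r, g (e p).1 = ∑ p : (ι → Fin r) × Fin r, g p.1 :=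
    Equiv.sum_comp he.toPerm (fun p : (ι → Fin r) × Fin r => g p.1)
  rw [Fintype.sum_prod_type, Fintype.sum_prod_type] at h1
  simp only [e] at h1
  rw [h1]
  simp [Finset.mul_sum]

theorem corr_eq_zero (hr : 0 < r) {z z' k k' : ι} (h1 : z ≠ z') (h2 : z ≠ k) (h3 : z ≠ k') :
    ∑ κ : ι → Fin r, chi r κ z z' * chi r κ k k' = 0 := by
  have : NeZero r := ⟨hr.ne'⟩
  have hr' : (r:ℝ) ≠ 0 := by exact_mod_cast hr.ne'
  have key := sum_update (r := r) z (fun κ => chi r κ z z' * chi r κ k k')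
  have h4 : ∀ κ : ι → Fin r, ∑ c : Fin r, chi r (Function.update κ z c) z z' *
      chi r (Function.update κ z c) k k' = 0 := by
    intro κ
    have h5 : ∀ c : Fin r, chi r (Function.update κ z c) k k' = chi r κ k k' := by
      intro c
      unfold chi
      rw [Function.update_of_ne h2.symm, Function.update_of_ne h3.symm]
    have h6 : ∀ c : Fin r, chi r (Function.update κ z c) z z' =
        (if c = κ z' then 1 else 0) - 1 / r := by
      intro c
      unfold chi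
      rw [Function.update_self, Function.update_of_ne h1.symm]
    simp_rw [h5, h6]
    rw [← Finset.sum_mul, Finset.sum_sub_distrib]
    simp
  simp_rw [h4] at key
  simp only [Finset.sum_const_zero] at key
  have := key.symm
  simpa [hr'] using this

/-- The correlation of two pairs vanishes unless they are equal as unordered pairs. -/
theorem corr_eq_zero' (hr : 0 < r) {π ρ : ι × ι} (hπ : π.1 ≠ π.2) (hρ : ρ.1 ≠ ρ.2)
    (h1 : ρ ≠ π) (h2 : ρ ≠ π.swap) :
    ∑ κ : ι → Fin r, chi r κ π.1 π.2 * chi r κ ρ.1 ρ.2 = 0 := by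
  obtain ⟨j, j'⟩ := π
  obtain ⟨k, k'⟩ := ρ
  simp only [Prod.swap_prod_mk, ne_eq, Prod.mk.injEq, not_and] at *
  by_cases h3 : j = k
  · subst h3
    have h4 : j' ≠ j := fun h => hπ h.symm
    have h5 : j' ≠ k' := fun h => h1 rfl h.symm
    have := corr_eq_zero (r := r) hr h4 h4 h5
    simp_rw [chi_comm _ j j']
    exact this
  by_cases h3' : j = k'
  · subst h3'
    have h4 : j' ≠ j := fun h => hπ h.symm
    have h5 : j' ≠ k := fun h => h2 h.symm rfl
    have := corr_eq_zero (r := r) hr h4 h5 h4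
    simp_rw [chi_comm _ j j']
    exact this
  exact corr_eq_zero (r := r) hr hπ h3 h3'

theorem abs_corr_le (hr : 0 < r) (π ρ : ι × ι) :
    |∑ κ : ι → Fin r, chi r κ π.1 π.2 * chi r κ ρ.1 ρ.2| ≤ (Fintype.card (ι → Fin r) : ℝ) := by
  calc |∑ κ : ι → Fin r, chi r κ π.1 π.2 * chi r κ ρ.1 ρ.2|
      ≤ ∑ κ : ι → Fin r, |chi r κ π.1 π.2 * chi r κ ρ.1 ρ.2| := Finset.abs_sum_le_sum_abs _ _
    _ ≤ ∑ _κ : ι → Fin r, (1:ℝ) := by
        refine Finset.sum_le_sum fun κ _ => ?_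
        rw [abs_mul]
        have h1 := abs_chi_le hr κ π.1 π.2
        have h2 := abs_chi_le hr κ ρ.1 ρ.2
        nlinarith [abs_nonneg (chi r κ π.1 π.2), abs_nonneg (chi r κ ρ.1 ρ.2)]
    _ = _ := by simp

/-- The off-diagonal pairs. -/
abbrev offPairs (ι : Type*) [Fintype ι] [DecidableEq ι] : Finset (ι × ι) :=
  (Finset.univ : Finset ι).offDiag

/-- The second moment computation for one family of coefficients. -/
theorem second_moment (hr : 0 < r) (t : ι × ι → ℂ) :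
    ∑ κ : ι → Fin r, ‖∑ π ∈ offPairs ι, (chi r κ π.1 π.2 : ℂ) * t π‖ ^ 2 ≤
      (Fintype.card (ι → Fin r) : ℝ) * (2 * ∑ π ∈ offPairs ι, ‖t π‖ ^ 2) := by
  set N : ℝ := (Fintype.card (ι → Fin r) : ℝ) with hN
  have hN0 : 0 ≤ N := by positivity
  -- expansion of the square
  have h1 : ∀ κ : ι → Fin r, ‖∑ π ∈ offPairs ι, (chi r κ π.1 π.2 : ℂ) * t π‖ ^ 2 =
      ∑ π ∈ offPairs ι, ∑ ρ ∈ offPairs ι,
        (chi r κ π.1 π.2 * chi r κ ρ.1 ρ.2) * (t π * conj (t ρ)).re := by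
    intro κ
    have h2 : ((‖∑ π ∈ offPairs ι, (chi r κ π.1 π.2 : ℂ) * t π‖ ^ 2 : ℝ) : ℂ) =
        (∑ π ∈ offPairs ι, (chi r κ π.1 π.2 : ℂ) * t π) *
          conj (∑ π ∈ offPairs ι, (chi r κ π.1 π.2 : ℂ) * t π) := by
      rw [Complex.mul_conj, Complex.normSq_eq_norm_sq]
    have h3 := congrArg Complex.re h2
    rw [Complex.ofReal_re] at h3
    rw [h3, map_sum, Finset.sum_mul_sum, Complex.re_sum]
    refine Finset.sum_congr rfl fun π _ => ?_
    rw [Complex.re_sum]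
    refine Finset.sum_congr rfl fun ρ _ => ?_
    rw [map_mul, Complex.conj_ofReal]
    have : (chi r κ π.1 π.2 : ℂ) * t π * ((chi r κ ρ.1 ρ.2 : ℂ) * conj (t ρ)) =
        ((chi r κ π.1 π.2 * chi r κ ρ.1 ρ.2 : ℝ) : ℂ) * (t π * conj (t ρ)) := by
      push_cast; ring
    rw [this, Complex.re_ofReal_mul]
  simp_rw [h1]
  rw [Finset.sum_comm]
  have h2 : ∀ π ∈ offPairs ι, ∑ κ : ι → Fin r, ∑ ρ ∈ offPairs ι,
      (chi r κ π.1 π.2 * chi r κ ρ.1 ρ.2) * (t π * conj (t ρ)).re ≤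
      N * (‖t π‖ ^ 2 + ‖t π‖ * ‖t π.swap‖) := by
    intro π hπ
    have hπ' : π.1 ≠ π.2 := by
      simpa [Finset.mem_offDiag] using hπ
    have hsw : π.swap ≠ π := by
      intro h
      exact hπ' (congrArg Prod.snd h)
    have hswm : π.swap ∈ offPairs ι := by
      simpa [Finset.mem_offDiag] using hπ'.symm
    rw [Finset.sum_comm]
    have h3 : ∀ ρ ∈ offPairs ι, ∑ κ : ι → Fin r,
        (chi r κ π.1 π.2 * chi r κ ρ.1 ρ.2) * (t π * conj (t ρ)).re ≤
        N * ((if ρ = π then ‖t π‖ ^ 2 else 0) + (if ρ = π.swap then ‖t π‖ * ‖t π.swap‖ else 0)) := by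
      intro ρ hρ
      have hρ' : ρ.1 ≠ ρ.2 := by
        simpa [Finset.mem_offDiag] using hρ
      rw [← Finset.sum_mul]
      have hre : |(t π * conj (t ρ)).re| ≤ ‖t π‖ * ‖t ρ‖ := by
        calc |(t π * conj (t ρ)).re| ≤ ‖t π * conj (t ρ)‖ := Complex.abs_re_le_norm _
          _ = ‖t π‖ * ‖t ρ‖ := by simp
      by_cases h4 : ρ = π
      · subst h4
        have h5 : ρ ≠ ρ.swap := hsw.symm
        simp only [if_true, h5, if_false, add_zero]
        calc _ ≤ |(∑ κ : ι → Fin r, chi r κ ρ.1 ρ.2 * chi r κ ρ.1 ρ.2) *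
              (t ρ * conj (t ρ)).re| := le_abs_self _
          _ = |∑ κ : ι → Fin r, chi r κ ρ.1 ρ.2 * chi r κ ρ.1 ρ.2| *
              |(t ρ * conj (t ρ)).re| := abs_mul _ _
          _ ≤ N * (‖t ρ‖ * ‖t ρ‖) :=
            mul_le_mul (abs_corr_le hr ρ ρ) hre (abs_nonneg _) hN0
          _ = N * ‖t ρ‖ ^ 2 := by ring
      by_cases h5 : ρ = π.swap
      · subst h5
        simp only [h4, if_false, if_true, zero_add]
        calc _ ≤ |(∑ κ : ι → Fin r, chi r κ π.1 π.2 * chi r κ π.swap.1 π.swap.2) *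
              (t π * conj (t π.swap)).re| := le_abs_self _
          _ = |∑ κ : ι → Fin r, chi r κ π.1 π.2 * chi r κ π.swap.1 π.swap.2| *
              |(t π * conj (t π.swap)).re| := abs_mul _ _
          _ ≤ N * (‖t π‖ * ‖t π.swap‖) :=
            mul_le_mul (abs_corr_le hr π π.swap) hre (abs_nonneg _) hN0
      · rw [corr_eq_zero' hr hπ' hρ' h4 h5]
        simp [h4, h5]
    refine (Finset.sum_le_sum h3).trans ?_
    rw [← Finset.mul_sum, Finset.sum_add_distrib, Finset.sum_ite_eq', Finset.sum_ite_eq']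
    simp only [hπ, hswm, if_true]
    exact le_rfl
  refine (Finset.sum_le_sum h2).trans ?_
  rw [← Finset.mul_sum]
  refine mul_le_mul_of_nonneg_left ?_ hN0
  -- the symmetric sum
  have h3 : ∑ π ∈ offPairs ι, ‖t π.swap‖ ^ 2 = ∑ π ∈ offPairs ι, ‖t π‖ ^ 2 := by
    refine Finset.sum_nbij' Prod.swap Prod.swap ?_ ?_ ?_ ?_ ?_
    · intro π hπ
      simpa [Finset.mem_offDiag, eq_comm] using hπ
    · intro π hπ
      simpa [Finset.mem_offDiag, eq_comm] using hπ
    · intro π _; simp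
    · intro π _; simp
    · intro π _; rfl
  have h4 : ∀ π ∈ offPairs ι, ‖t π‖ ^ 2 + ‖t π‖ * ‖t π.swap‖ ≤
      (3 / 2) * ‖t π‖ ^ 2 + (1 / 2) * ‖t π.swap‖ ^ 2 := by
    intro π _
    nlinarith [sq_nonneg (‖t π‖ - ‖t π.swap‖)]
  refine (Finset.sum_le_sum h4).trans ?_
  rw [Finset.sum_add_distrib, ← Finset.mul_sum, ← Finset.mul_sum, h3]
  apply le_of_eq; ring

/-- Existence of a good colouring: the second moment bound for finitely many coefficient families
holds simultaneously for some colouring. -/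
theorem exists_coloring (hr : 0 < r) {Λ : Type*} [Fintype Λ] (t : Λ → ι × ι → ℂ) :
    ∃ κ : ι → Fin r, ∑ l, ‖∑ π ∈ offPairs ι, (chi r κ π.1 π.2 : ℂ) * t l π‖ ^ 2 ≤
      2 * ∑ l, ∑ π ∈ offPairs ι, ‖t l π‖ ^ 2 := by
  have : NeZero r := ⟨hr.ne'⟩
  have hN : (0:ℝ) < (Fintype.card (ι → Fin r) : ℝ) := by
    exact_mod_cast Fintype.card_pos
  by_contra hcon
  push Not at hcon
  have h1 : ∑ κ : ι → Fin r, (2 * ∑ l, ∑ π ∈ offPairs ι, ‖t l π‖ ^ 2) <
      ∑ κ : ι → Fin r, ∑ l, ‖∑ π ∈ offPairs ι, (chi r κ π.1 π.2 : ℂ) * t l π‖ ^ 2 :=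
    Finset.sum_lt_sum_of_nonempty Finset.univ_nonempty fun κ _ => hcon κ
  have h1' : ∑ κ : ι → Fin r, ∑ l, ‖∑ π ∈ offPairs ι, (chi r κ π.1 π.2 : ℂ) * t l π‖ ^ 2 =
      ∑ l, ∑ κ : ι → Fin r, ‖∑ π ∈ offPairs ι, (chi r κ π.1 π.2 : ℂ) * t l π‖ ^ 2 :=
    Finset.sum_comm
  have h2 : ∑ l, ∑ κ : ι → Fin r, ‖∑ π ∈ offPairs ι, (chi r κ π.1 π.2 : ℂ) * t l π‖ ^ 2 ≤
      ∑ l, (Fintype.card (ι → Fin r) : ℝ) * (2 * ∑ π ∈ offPairs ι, ‖t l π‖ ^ 2) :=
    Finset.sum_le_sum fun l _ => second_moment hr (t l)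
  have h3 : ∑ _κ : ι → Fin r, (2 * ∑ l, ∑ π ∈ offPairs ι, ‖t l π‖ ^ 2) =
      ∑ l, (Fintype.card (ι → Fin r) : ℝ) * (2 * ∑ π ∈ offPairs ι, ‖t l π‖ ^ 2) := by
    rw [Finset.sum_const, Finset.card_univ, nsmul_eq_mul, Finset.mul_sum, Finset.mul_sum]
  linarith

end Vale.Agent.Lib.P078
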