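import Vale.Agent.Lib.P078.Fine

open scoped InnerProductSpace ComplexConjugate
open Filter Topology

namespace Vale.Agent.Lib.P078

variable {H : Type*} [NormedAddCommGroup H] [InnerProductSpace ℂ H] [CompleteSpace H]
variable {A : StarSubalgebra ℂ (H →L[ℂ] H)}

/-- An operator commuting with all of `A` belongs to the MASA `A`. -/
theorem IsMasa.mem_of_commute (hA : IsMasa A) {a : H →L[ℂ] H} (h : ∀ b ∈ A, a * b = b * a) :
    a ∈ A := by
  have h1 : a ∈ Set.centralizer (A : Set (H →L[ℂ] H)) := by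
    rw [Set.mem_centralizer_iff]
    intro b hb
    exact (h b hb).symm
  rw [hA] at h1
  exact h1

/-- The sign projection of a self-adjoint element of a MASA: `b` is at distance at most `‖b‖ / 2`
from `(‖b‖ / 2) (2 e - 1)`. -/
theorem IsMasa.exists_sign_projection (hA : IsMasa A) {b : H →L[ℂ] H} (hbA : b ∈ A)
    (hb : IsSelfAdjoint b) :
    ∃ e ∈ A, IsStarProjection e ∧
      ‖b - ((‖b‖ / 2 : ℝ) : ℂ) • ((2 : ℂ) • e - 1)‖ ≤ ‖b‖ / 2 := by
  set L : ℝ := ‖b‖ with hL
  have hL0 : 0 ≤ L := norm_nonneg _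
  let f₁ : ℝ → ℝ := fun t => max t 0
  let f₂ : ℝ → ℝ := fun t => max (-t) 0
  have hf₁ : Continuous f₁ := by fun_prop
  have hf₂ : Continuous f₂ := by fun_prop
  let b₁ : H →L[ℂ] H := cfc f₁ b
  let b₂ : H →L[ℂ] H := cfc f₂ b
  have hspec : ∀ t ∈ spectrum ℝ b, |t| ≤ L := by
    intro t ht
    rcases subsingleton_or_nontrivial H with hsub | hnt
    · have : Subsingleton (H →L[ℂ] H) := inferInstance
      rw [spectrum.of_subsingleton] at ht
      exact absurd ht (Set.notMem_empty _)
    · have := spectrum.norm_le_norm_of_mem ht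
      simpa using this
  have hsum : b = b₁ - b₂ := by
    have h1 : cfc (fun t : ℝ => f₁ t - f₂ t) b = b₁ - b₂ := cfc_sub f₁ f₂ b
    have h2 : cfc (fun t : ℝ => f₁ t - f₂ t) b = cfc (fun t : ℝ => t) b := by
      refine cfc_congr fun t _ => ?_
      simp only [f₁, f₂]
      rcases le_total t 0 with h | h
      · rw [max_eq_right h, max_eq_left (by linarith)]; ring
      · rw [max_eq_left h, max_eq_right (by linarith)]; ring
    rw [← h1, h2, cfc_id' ℝ b]
  have hmul : b₁ * b₂ = 0 := by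
    have h1 : cfc (fun t : ℝ => f₁ t * f₂ t) b = b₁ * b₂ := cfc_mul f₁ f₂ b
    have h2 : cfc (fun t : ℝ => f₁ t * f₂ t) b = cfc (fun _ : ℝ => (0 : ℝ)) b := by
      refine cfc_congr fun t _ => ?_
      simp only [f₁, f₂]
      rcases le_total t 0 with h | h
      · rw [max_eq_right h]; ring
      · rw [max_eq_right (a := -t) (by linarith)]; ring
    rw [← h1, h2]
    simp
  have hcommA : ∀ c ∈ A, ∀ g : ℝ → ℝ, Commute (cfc g b) c := by
    intro c hc g
    exact Commute.cfc_real (hA.comm hbA hc) g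
  have hb₁A : b₁ ∈ A := hA.mem_of_commute fun c hc => hcommA c hc f₁
  have hb₂A : b₂ ∈ A := hA.mem_of_commute fun c hc => hcommA c hc f₂
  have hb₁s : IsSelfAdjoint b₁ := cfc_predicate f₁ b
  have hb₂s : IsSelfAdjoint b₂ := cfc_predicate f₂ b
  -- norm estimates
  have hα : ‖b₁ - ((L / 2 : ℝ) : ℂ) • (1 : H →L[ℂ] H)‖ ≤ L / 2 := by
    have h1 : cfc (fun t : ℝ => f₁ t - L / 2) b = b₁ - ((L / 2 : ℝ) : ℂ) • (1 : H →L[ℂ] H) := by
      rw [cfc_sub f₁ (fun _ => L / 2) b, cfc_const (L / 2) b]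
      congr 1
    rw [← h1]
    refine norm_cfc_le (by positivity) fun t ht => ?_
    have h2 := abs_le.mp (hspec t ht)
    simp only [f₁, Real.norm_eq_abs, abs_le]
    rcases le_total t 0 with h | h
    · rw [max_eq_right h]; constructor <;> linarith
    · rw [max_eq_left h]; constructor <;> linarith
  have hβ : ‖b₂ - ((L / 2 : ℝ) : ℂ) • (1 : H →L[ℂ] H)‖ ≤ L / 2 := by
    have h1 : cfc (fun t : ℝ => f₂ t - L / 2) b = b₂ - ((L / 2 : ℝ) : ℂ) • (1 : H →L[ℂ] H) := by
      rw [cfc_sub f₂ (fun _ => L / 2) b, cfc_const (L / 2) b]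
      congr 1
    rw [← h1]
    refine norm_cfc_le (by positivity) fun t ht => ?_
    have h2 := abs_le.mp (hspec t ht)
    simp only [f₂, Real.norm_eq_abs, abs_le]
    rcases le_total t 0 with h | h
    · rw [max_eq_left (by linarith)]; constructor <;> linarith
    · rw [max_eq_right (by linarith)]; constructor <;> linarith
  -- the projection on the kernel of the negative part
  let K : Submodule ℂ H := LinearMap.ker (b₂ : H →ₗ[ℂ] H)
  have hKc : IsClosed (K : Set H) := b₂.isClosed_ker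
  have : CompleteSpace K := hKc.completeSpace_coe
  have : K.HasOrthogonalProjection := inferInstance
  have hinv : ∀ c ∈ A, ∀ w ∈ K, c w ∈ K := by
    intro c hc w hw
    change b₂ (c w) = 0
    rw [hA.comm_apply hb₂A hc]
    have h2 : b₂ w = 0 := hw
    rw [h2, map_zero]
  let e : H →L[ℂ] H := K.starProjection
  have heA : e ∈ A := hA.starProjection_mem K hinv
  have he : IsStarProjection e := isStarProjection_starProjection
  refine ⟨e, heA, he, ?_⟩
  -- `b₂ e = 0`
  have h2e : ∀ v, b₂ (e v) = 0 := fun v => K.starProjection_apply_mem v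
  -- `b₁ (1 - e) = 0`
  have h1e : ∀ v, b₁ (v - e v) = 0 := by
    intro v
    have h1 : v - e v ∈ Kᗮ := K.sub_starProjection_mem_orthogonal v
    have h2 : Kᗮ = (LinearMap.range (b₂ : H →ₗ[ℂ] H)).topologicalClosure := by
      have h3 := ContinuousLinearMap.orthogonal_ker b₂
      have h4 : ContinuousLinearMap.adjoint b₂ = b₂ := by
        have := hb₂s.star_eq
        rwa [ContinuousLinearMap.star_eq_adjoint] at this
      rw [h4] at h3
      exact h3
    rw [h2] at h1
    have h3 : (LinearMap.range (b₂ : H →ₗ[ℂ] H)) ≤ LinearMap.ker (b₁ : H →ₗ[ℂ] H) := by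
      rintro _ ⟨u, rfl⟩
      change b₁ (b₂ u) = 0
      have := congrArg (fun T : H →L[ℂ] H => T u) hmul
      simpa using this
    have h4 : (LinearMap.range (b₂ : H →ₗ[ℂ] H)).topologicalClosure ≤
        LinearMap.ker (b₁ : H →ₗ[ℂ] H) := by
      refine Submodule.topologicalClosure_minimal _ h3 ?_
      exact b₁.isClosed_ker
    exact h4 h1
  refine ContinuousLinearMap.opNorm_le_bound _ (by positivity) fun v => ?_
  set α : H →L[ℂ] H := b₁ - ((L / 2 : ℝ) : ℂ) • (1 : H →L[ℂ] H) with hαd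
  set β : H →L[ℂ] H := b₂ - ((L / 2 : ℝ) : ℂ) • (1 : H →L[ℂ] H) with hβd
  have hαA : α ∈ A := A.sub_mem hb₁A (A.smul_mem A.one_mem _)
  have hβA : β ∈ A := A.sub_mem hb₂A (A.smul_mem A.one_mem _)
  -- the formula
  have hform : (b - ((L / 2 : ℝ) : ℂ) • ((2 : ℂ) • e - 1)) v = e (α v) - (β (v - e v) ) := by
    have h1 : e (α v) = α (e v) := hA.comm_apply heA hαA v
    rw [h1]
    have h3 : b v = b₁ (e v) - b₂ (v - e v) := by
      have h4 : b₁ v = b₁ (e v) := by
        have := h1e v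
        rw [map_sub, sub_eq_zero] at this
        exact this
      have h5 : b₂ (v - e v) = b₂ v := by
        rw [map_sub, h2e v, sub_zero]
      rw [h5, ← h4, hsum]
      simp
    simp only [hαd, hβd]
    simp only [ContinuousLinearMap.sub_apply, ContinuousLinearMap.smul_apply,
      ContinuousLinearMap.one_apply, h3]
    module
  rw [hform]
  have hu₁ : ‖e (α v)‖ ≤ L / 2 * ‖e v‖ := by
    have h1 : e (α v) = α (e v) := hA.comm_apply heA hαA v
    rw [h1]
    exact (α.le_opNorm _).trans (mul_le_mul_of_nonneg_right hα (norm_nonneg _))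
  have hu₂ : ‖β (v - e v)‖ ≤ L / 2 * ‖v - e v‖ :=
    (β.le_opNorm _).trans (mul_le_mul_of_nonneg_right hβ (norm_nonneg _))
  have horth : ⟪e (α v), β (v - e v)⟫_ℂ = 0 := by
    have h1 : e (β (v - e v)) = 0 := by
      rw [hA.comm_apply heA hβA, map_sub, proj_apply_apply he, sub_self, map_zero]
    rw [inner_selfAdjoint he.isSelfAdjoint, h1, inner_zero_right]
  have hpy : ‖e v‖ ^ 2 + ‖v - e v‖ ^ 2 = ‖v‖ ^ 2 := by
    have h1 : ⟪e v, v - e v⟫_ℂ = 0 := by
      rw [inner_selfAdjoint he.isSelfAdjoint, map_sub, proj_apply_apply he, sub_self,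
        inner_zero_right]
    have h2 := norm_add_sq_eq_norm_sq_add_norm_sq_of_inner_eq_zero _ _ h1
    rw [add_sub_cancel] at h2
    nlinarith [h2]
  have hsq : ‖e (α v) - β (v - e v)‖ ^ 2 = ‖e (α v)‖ ^ 2 + ‖β (v - e v)‖ ^ 2 := by
    have h2 := norm_sub_sq (𝕜 := ℂ) (e (α v)) (β (v - e v))
    rw [horth] at h2
    simpa using h2
  have hfin : ‖e (α v) - β (v - e v)‖ ^ 2 ≤ (L / 2 * ‖v‖) ^ 2 := by
    rw [hsq, mul_pow, ← hpy, mul_add, ← mul_pow, ← mul_pow]
    exact add_le_add (pow_le_pow_left₀ (norm_nonneg _) hu₁ 2) (pow_le_pow_left₀ (norm_nonneg _) hu₂ 2)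
  exact (pow_le_pow_iff_left₀ (norm_nonneg _) (by positivity) (by norm_num)).mp hfin

/-- An operator commuting with all projections of a MASA commutes with the self-adjoint elements. -/
theorem IsMasa.commutator_le (hA : IsMasa A) {a : H →L[ℂ] H}
    (ha : ∀ p ∈ A, IsStarProjection p → a * p = p * a) (n : ℕ) :
    ∀ b ∈ A, IsSelfAdjoint b → ‖a * b - b * a‖ ≤ 2 * ‖a‖ * ‖b‖ / 2 ^ n := by
  induction n with
  | zero =>
    intro b _ _
    have h1 := norm_sub_le (a * b) (b * a)
    have h2 := norm_mul_le a b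
    have h3 := norm_mul_le b a
    simp only [pow_zero, div_one]
    nlinarith [norm_nonneg a, norm_nonneg b]
  | succ n ih =>
    intro b hbA hb
    obtain ⟨e, heA, he, hle⟩ := hA.exists_sign_projection hbA hb
    set y : H →L[ℂ] H := b - ((‖b‖ / 2 : ℝ) : ℂ) • ((2 : ℂ) • e - 1) with hy
    have hyA : y ∈ A :=
      A.sub_mem hbA (A.smul_mem (A.sub_mem (A.smul_mem heA _) A.one_mem) _)
    have hys : IsSelfAdjoint y := by
      refine hb.sub ?_
      rw [isSelfAdjoint_iff, star_smul, star_sub, star_smul, star_one,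
        he.isSelfAdjoint.star_eq]
      simp
    have hcomm : a * b - b * a = a * y - y * a := by
      have h1 := ha e heA he
      simp only [hy, mul_sub, sub_mul, mul_smul_comm, smul_mul_assoc, mul_one, one_mul, h1]
      abel
    rw [hcomm]
    refine (ih y hyA hys).trans ?_
    rw [pow_succ]
    have h2 : 2 * ‖a‖ * ‖y‖ ≤ 2 * ‖a‖ * (‖b‖ / 2) :=
      mul_le_mul_of_nonneg_left hle (by positivity)
    calc 2 * ‖a‖ * ‖y‖ / 2 ^ n ≤ 2 * ‖a‖ * (‖b‖ / 2) / 2 ^ n := by gcongr
      _ = 2 * ‖a‖ * ‖b‖ / (2 ^ n * 2) := by field_simp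

theorem IsMasa.mem_of_commute_projections (hA : IsMasa A) {a : H →L[ℂ] H}
    (ha : ∀ p ∈ A, IsStarProjection p → a * p = p * a) : a ∈ A := by
  have hsa : ∀ b ∈ A, IsSelfAdjoint b → a * b = b * a := by
    intro b hbA hb
    have h1 : Tendsto (fun n : ℕ => 2 * ‖a‖ * ‖b‖ / 2 ^ n) atTop (𝓝 0) := by
      have h2 : Tendsto (fun n : ℕ => ((1:ℝ) / 2) ^ n) atTop (𝓝 0) :=
        tendsto_pow_atTop_nhds_zero_of_lt_one (by norm_num) (by norm_num)
      have h3 := h2.const_mul (2 * ‖a‖ * ‖b‖)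
      simp only [mul_zero] at h3
      refine h3.congr fun n => ?_
      rw [one_div, inv_pow, div_eq_mul_inv]
    have h2 : ‖a * b - b * a‖ ≤ 0 := ge_of_tendsto' h1 fun n => hA.commutator_le ha n b hbA hb
    have h3 : a * b - b * a = 0 := norm_le_zero_iff.mp h2
    exact sub_eq_zero.mp h3
  refine hA.mem_of_commute fun b hb => ?_
  -- real and imaginary parts
  set u : H →L[ℂ] H := (2⁻¹ : ℂ) • (b + star b) with hu
  set w : H →L[ℂ] H := (-(Complex.I / 2)) • (b - star b) with hw
  have hstar : star b ∈ A := star_mem hb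
  have huA : u ∈ A := A.smul_mem (A.add_mem hb hstar) _
  have hwA : w ∈ A := A.smul_mem (A.sub_mem hb hstar) _
  have hus : IsSelfAdjoint u := by
    rw [isSelfAdjoint_iff, hu, star_smul, star_add, star_star, add_comm]
    simp
  have hws : IsSelfAdjoint w := by
    rw [isSelfAdjoint_iff, hw, star_smul, star_sub, star_star]
    have h1 : star (-(Complex.I / 2)) = Complex.I / 2 := by
      rw [Complex.star_def]
      have h2 : (starRingEnd ℂ) (2 : ℂ) = 2 := map_ofNat _ 2
      simp only [map_neg, map_div₀, Complex.conj_I, h2]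
      ring
    rw [h1]
    module
  have hbuw : b = u + Complex.I • w := by
    have h1 : Complex.I • w = (2⁻¹ : ℂ) • (b - star b) := by
      rw [hw, smul_smul]
      congr 1
      have h2 : Complex.I * Complex.I = -1 := Complex.I_mul_I
      linear_combination (-1 / 2 : ℂ) * h2
    rw [h1, hu]
    module
  have h1 := hsa u huA hus
  have h2 := hsa w hwA hws
  calc a * b = a * (u + Complex.I • w) := by rw [← hbuw]
    _ = (u + Complex.I • w) * a := by
      rw [mul_add, add_mul, h1, mul_smul_comm, h2, smul_mul_assoc Complex.I w a]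
    _ = b * a := by rw [← hbuw]

end Vale.Agent.Lib.P078
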