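import Vale.Agent.Lib.P078.Basic

open scoped InnerProductSpace ComplexConjugate
open Filter Topology

namespace Vale.Agent.Lib.P078

variable {H : Type*} [NormedAddCommGroup H] [InnerProductSpace ℂ H] [CompleteSpace H]
variable {A : StarSubalgebra ℂ (H →L[ℂ] H)}

theorem IsMasa.comm (hA : IsMasa A) {a b : H →L[ℂ] H} (ha : a ∈ A) (hb : b ∈ A) :
    a * b = b * a := by
  have hb' : b ∈ Set.centralizer (A : Set (H →L[ℂ] H)) := by
    rw [hA]; exact hb
  exact Set.mem_centralizer_iff.mp hb' a ha

theorem IsMasa.comm_apply (hA : IsMasa A) {a b : H →L[ℂ] H} (ha : a ∈ A) (hb : b ∈ A) (v : H) :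
    a (b v) = b (a v) := by
  have := congrArg (fun T : H →L[ℂ] H => T v) (hA.comm ha hb)
  simpa using this

/-- A closed subspace invariant under a MASA has its orthogonal projection in the MASA. -/
theorem IsMasa.starProjection_mem (hA : IsMasa A) (W : Submodule ℂ H) [W.HasOrthogonalProjection]
    (hW : ∀ b ∈ A, ∀ w ∈ W, b w ∈ W) : W.starProjection ∈ A := by
  have h : W.starProjection ∈ Set.centralizer (A : Set (H →L[ℂ] H)) := by
    rw [Set.mem_centralizer_iff]
    intro b hb
    ext u
    simp only [ContinuousLinearMap.mul_apply]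
    -- decomposition of `u`
    have h1 : W.starProjection u ∈ W := W.starProjection_apply_mem u
    have h2 : u - W.starProjection u ∈ Wᗮ := W.sub_starProjection_mem_orthogonal u
    have h3 : b (u - W.starProjection u) ∈ Wᗮ := by
      rw [Submodule.mem_orthogonal]
      intro w hw
      have hb' : star b ∈ A := star_mem hb
      have h4 : ⟪star b w, u - W.starProjection u⟫_ℂ = 0 :=
        (Submodule.mem_orthogonal _ _).mp h2 _ (hW _ hb' _ hw)
      rw [ContinuousLinearMap.star_eq_adjoint, ContinuousLinearMap.adjoint_inner_left] at h4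
      exact h4
    have h5 : W.starProjection (b (u - W.starProjection u)) = 0 :=
      (Submodule.starProjection_apply_eq_zero_iff W).mpr h3
    have h6 : b (W.starProjection u) ∈ W := hW b hb _ h1
    have h7 : W.starProjection (b (W.starProjection u)) = b (W.starProjection u) :=
      Submodule.starProjection_eq_self_iff.mpr h6
    rw [map_sub, map_sub, h7, sub_eq_zero] at h5
    exact h5.symm
  rw [hA] at h
  exact h

/-- The mass of a projection `p` against a finite set of vectors. -/
noncomputable def om (V : Finset H) (p : H →L[ℂ] H) : ℝ := ∑ v ∈ V, ‖p v‖ ^ 2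

omit [CompleteSpace H] in
theorem om_nonneg (V : Finset H) (p : H →L[ℂ] H) : 0 ≤ om V p :=
  Finset.sum_nonneg fun _ _ => by positivity

omit [CompleteSpace H] in
theorem om_zero (V : Finset H) : om V (0 : H →L[ℂ] H) = 0 := by
  simp [om]

omit [CompleteSpace H] in
theorem apply_eq_zero_of_om {V : Finset H} {p : H →L[ℂ] H} (h : om V p = 0) {v : H}
    (hv : v ∈ V) : p v = 0 := by
  have h1 := (Finset.sum_eq_zero_iff_of_nonneg (fun _ _ => by positivity)).mp h v hv
  simpa using h1

theorem om_add {e f : H →L[ℂ] H} (he : IsStarProjection e) (hef : e * f = 0) (V : Finset H) :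
    om V (e + f) = om V e + om V f := by
  unfold om
  rw [← Finset.sum_add_distrib]
  refine Finset.sum_congr rfl fun v _ => ?_
  have h1 : ⟪e v, f v⟫_ℂ = 0 := by
    rw [inner_selfAdjoint he.isSelfAdjoint]
    have := congrArg (fun T : H →L[ℂ] H => T v) hef
    simp only [ContinuousLinearMap.mul_apply, ContinuousLinearMap.zero_apply] at this
    rw [this, inner_zero_right]
  have h2 := norm_add_sq_eq_norm_sq_add_norm_sq_of_inner_eq_zero _ _ h1
  simp only [ContinuousLinearMap.add_apply]
  nlinarith [h2]

theorem proj_mul_comm {e p : H →L[ℂ] H} (he : IsStarProjection e) (hp : IsStarProjection p)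
    (h : e * p = e) : p * e = e := by
  have := congrArg star h
  rwa [star_mul, he.isSelfAdjoint.star_eq, hp.isSelfAdjoint.star_eq] at this

theorem om_sub {e p : H →L[ℂ] H} (he : IsStarProjection e) (_hp : IsStarProjection p)
    (h : e * p = e) (V : Finset H) : om V (p - e) = om V p - om V e := by
  have h1 : e * (p - e) = 0 := by
    rw [mul_sub, h, he.isIdempotentElem.eq, sub_self]
  have h2 := om_add he h1 V
  rw [add_sub_cancel] at h2
  linarith

/-- The support projection of a finite set of vectors relative to `A`. -/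
theorem IsMasa.exists_support (hA : IsMasa A) (V : Finset H) :
    ∃ s ∈ A, IsStarProjection s ∧ (∀ v ∈ V, s v = v) ∧
      ∀ e ∈ A, IsStarProjection e → e * s = e → om V e = 0 → e = 0 := by
  let W₀ : Submodule ℂ H := Submodule.span ℂ {u | ∃ b ∈ A, ∃ v ∈ V, u = b v}
  let W : Submodule ℂ H := W₀.topologicalClosure
  have hWc : IsClosed (W : Set H) := W₀.isClosed_topologicalClosure
  have : CompleteSpace W := hWc.completeSpace_coe
  have : W.HasOrthogonalProjection := inferInstance
  have hinv : ∀ b ∈ A, ∀ w ∈ W, b w ∈ W := by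
    intro b hb
    have h1 : W₀ ≤ W.comap (b : H →ₗ[ℂ] H) := by
      rw [Submodule.span_le]
      rintro _ ⟨b', hb', v, hv, rfl⟩
      refine W₀.le_topologicalClosure (Submodule.subset_span ⟨b * b', A.mul_mem hb hb', v, hv, ?_⟩)
      simp
    have h2 : W ≤ W.comap (b : H →ₗ[ℂ] H) := by
      refine Submodule.topologicalClosure_minimal _ h1 ?_
      exact hWc.preimage b.continuous
    exact fun w hw => h2 hw
  refine ⟨W.starProjection, hA.starProjection_mem W hinv, isStarProjection_starProjection, ?_, ?_⟩
  · intro v hv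
    apply Submodule.starProjection_eq_self_iff.mpr
    refine W₀.le_topologicalClosure (Submodule.subset_span ⟨1, A.one_mem, v, hv, ?_⟩)
    simp
  · intro e he hep hes hom
    have h1 : W₀ ≤ LinearMap.ker (e : H →ₗ[ℂ] H) := by
      rw [Submodule.span_le]
      rintro _ ⟨b', hb', v, hv, rfl⟩
      change e (b' v) = 0
      rw [hA.comm_apply he hb', apply_eq_zero_of_om hom hv, map_zero]
    have h2 : W ≤ LinearMap.ker (e : H →ₗ[ℂ] H) := by
      refine Submodule.topologicalClosure_minimal _ h1 ?_
      exact (isClosed_singleton (x := (0 : H))).preimage e.continuous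
    ext u
    have h3 : e (W.starProjection u) = 0 := h2 (W.starProjection_apply_mem u)
    have h4 := congrArg (fun T : H →L[ℂ] H => T u) hes
    simp only [ContinuousLinearMap.mul_apply] at h4
    rw [← h4, h3]; simp

/-- Halving a positive mass. -/
theorem IsMasa.exists_half (hA : IsMasa A) (hd : IsDiffuse A) (V : Finset H) {p : H →L[ℂ] H}
    (hpA : p ∈ A) (hp : IsStarProjection p) (hpos : 0 < om V p) :
    ∃ e ∈ A, IsStarProjection e ∧ e * p = e ∧ 0 < om V e ∧ om V e ≤ om V p / 2 := by
  obtain ⟨s, hsA, hs, hsV, hsupp⟩ := hA.exists_support V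
  have hcomm : Commute p s := hA.comm hpA hsA
  have hp'A : p * s ∈ A := A.mul_mem hpA hsA
  have hp' : IsStarProjection (p * s) := hp.mul hs hcomm
  have hom' : om V (p * s) = om V p := by
    unfold om
    refine Finset.sum_congr rfl fun v hv => ?_
    simp [hsV v hv]
  have hp'0 : p * s ≠ 0 := by
    intro h
    rw [h, om_zero] at hom'
    linarith
  obtain ⟨e₀, he₀A, he₀, he₀0, he₀ne, he₀p⟩ := hd _ hp'A hp' hp'0
  have hpos' : ∀ e ∈ A, IsStarProjection e → e * (p * s) = e → e ≠ 0 → 0 < om V e := by
    intro e heA he hep hne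
    refine lt_of_le_of_ne (om_nonneg V e) fun h => hne ?_
    refine hsupp e heA he ?_ h.symm
    rw [← hep, mul_assoc, mul_assoc, hs.isIdempotentElem.eq]
  have h0 : 0 < om V e₀ := hpos' e₀ he₀A he₀ he₀p he₀0
  have h1mem : p * s - e₀ ∈ A := A.sub_mem hp'A he₀A
  have h1 : IsStarProjection (p * s - e₀) := he₀.sub_of_mul_eq_left hp' he₀p
  have h1ne : p * s - e₀ ≠ 0 := sub_ne_zero.mpr (Ne.symm he₀ne)
  have h1mul : (p * s - e₀) * (p * s) = p * s - e₀ := by
    rw [sub_mul, hp'.isIdempotentElem.eq, he₀p]
  have h10 : 0 < om V (p * s - e₀) := hpos' _ h1mem h1 h1mul h1ne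
  have hsum : om V (p * s - e₀) = om V p - om V e₀ := by
    rw [om_sub he₀ hp' he₀p, hom']
  have hle : ∀ e : H →L[ℂ] H, e * (p * s) = e → e * p = e := by
    intro e he
    have h2 : s * p = p * s := hcomm.symm.eq
    calc e * p = e * (p * s) * p := by rw [he]
      _ = e * (s * p) * p := by rw [h2]
      _ = e * s * (p * p) := by simp only [mul_assoc]
      _ = e * (s * p) := by rw [hp.isIdempotentElem.eq, mul_assoc]
      _ = e * (p * s) := by rw [h2]
      _ = e := he
  by_cases h : om V e₀ ≤ om V p / 2
  · exact ⟨e₀, he₀A, he₀, hle _ he₀p, h0, h⟩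
  · refine ⟨p * s - e₀, h1mem, h1, hle _ h1mul, h10, ?_⟩
    rw [hsum]
    push Not at h
    linarith

/-- Arbitrarily small positive pieces. -/
theorem IsMasa.exists_small (hA : IsMasa A) (hd : IsDiffuse A) (V : Finset H) {p : H →L[ℂ] H}
    (hpA : p ∈ A) (hp : IsStarProjection p) (hpos : 0 < om V p) (n : ℕ) :
    ∃ e ∈ A, IsStarProjection e ∧ e * p = e ∧ 0 < om V e ∧ om V e ≤ om V p / 2 ^ n := by
  induction n with
  | zero =>
    refine ⟨p, hpA, hp, hp.isIdempotentElem.eq, hpos, ?_⟩
    simp
  | succ n ih =>
    obtain ⟨e, heA, he, hep, hepos, hele⟩ := ih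
    obtain ⟨e', he'A, he', he'e, he'pos, he'le⟩ := hA.exists_half hd V heA he hepos
    refine ⟨e', he'A, he', ?_, he'pos, ?_⟩
    · rw [← he'e, mul_assoc, hep]
    · rw [pow_succ]
      calc om V e' ≤ om V e / 2 := he'le
        _ ≤ (om V p / 2 ^ n) / 2 := by linarith
        _ = om V p / (2 ^ n * 2) := by field_simp

theorem IsMasa.exists_small' (hA : IsMasa A) (hd : IsDiffuse A) (V : Finset H) {p : H →L[ℂ] H}
    (hpA : p ∈ A) (hp : IsStarProjection p) (hpos : 0 < om V p) {η : ℝ} (hη : 0 < η) :
    ∃ e ∈ A, IsStarProjection e ∧ e * p = e ∧ 0 < om V e ∧ om V e ≤ η := by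
  obtain ⟨n, hn⟩ := exists_nat_gt (om V p / η)
  obtain ⟨e, heA, he, hep, hepos, hele⟩ := hA.exists_small hd V hpA hp hpos n
  refine ⟨e, heA, he, hep, hepos, hele.trans ?_⟩
  have h1 : (n : ℝ) < 2 ^ n := by exact_mod_cast Nat.lt_two_pow_self
  have h2 : om V p / η < 2 ^ n := hn.trans h1
  rw [div_lt_iff₀ hη] at h2
  rw [div_le_iff₀ (by positivity)]
  linarith

theorem mul_eq_of_forall {e p : H →L[ℂ] H} (he : IsStarProjection e) (hp : IsStarProjection p)
    (h : ∀ u, p (e u) = e u) : e * p = e := by
  have h1 : p * e = e := by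
    ext u; simpa using h u
  have := congrArg star h1
  rwa [star_mul, he.isSelfAdjoint.star_eq, hp.isSelfAdjoint.star_eq] at this

/-- The Zorn step: the exact value theorem of Sierpiński. -/
theorem IsMasa.exists_om_eq (hA : IsMasa A) (hd : IsDiffuse A) (V : Finset H) {p : H →L[ℂ] H}
    (hpA : p ∈ A) (hp : IsStarProjection p) {t : ℝ} (ht0 : 0 ≤ t) (ht : t ≤ om V p) :
    ∃ e ∈ A, IsStarProjection e ∧ e * p = e ∧ om V e = t := by
  classical
  let S : Set (Submodule ℂ H) := {W | ∃ _ : W.HasOrthogonalProjection,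
    W.starProjection ∈ A ∧ W.starProjection * p = W.starProjection ∧ om V W.starProjection ≤ t}
  have hbot : (⊥ : Submodule ℂ H) ∈ S := by
    refine ⟨inferInstance, ?_, ?_, ?_⟩
    · simp [Submodule.starProjection_bot]
    · simp [Submodule.starProjection_bot]
    · simpa [Submodule.starProjection_bot, om_zero] using ht0
  have hchain : ∀ c ⊆ S, IsChain (· ≤ ·) c → ∀ y ∈ c, ∃ ub ∈ S, ∀ z ∈ c, z ≤ ub := by
    intro c hcS hc y hy
    let U : c → Submodule ℂ H := fun i => i.1
    have hUproj : ∀ i, (U i).HasOrthogonalProjection := fun i => (hcS i.2).choose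
    have hU : Monotone U := fun i j hij => hij
    let K : Submodule ℂ H := (⨆ i, U i).topologicalClosure
    have hKc : IsClosed (K : Set H) := (⨆ i, U i).isClosed_topologicalClosure
    have : CompleteSpace K := hKc.completeSpace_coe
    have : K.HasOrthogonalProjection := inferInstance
    have hUK : ∀ i, U i ≤ K := fun i => (le_iSup U i).trans (⨆ i, U i).le_topologicalClosure
    have hprops : ∀ i, (U i).starProjection ∈ A ∧
        (U i).starProjection * p = (U i).starProjection ∧ om V (U i).starProjection ≤ t := by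
      intro i
      exact (hcS i.2).choose_spec
    -- `K` is invariant
    have hinv : ∀ b ∈ A, ∀ w ∈ K, b w ∈ K := by
      intro b hb
      have h1 : (⨆ i, U i) ≤ K.comap (b : H →ₗ[ℂ] H) := by
        refine iSup_le fun i w hw => ?_
        have h2 : (U i).starProjection w = w := Submodule.starProjection_eq_self_iff.mpr hw
        apply hUK i
        have h3 : (U i).starProjection (b w) = b w := by
          rw [hA.comm_apply (hprops i).1 hb, h2]
        exact Submodule.starProjection_eq_self_iff.mp h3
      have h2 : K ≤ K.comap (b : H →ₗ[ℂ] H) := by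
        refine Submodule.topologicalClosure_minimal _ h1 ?_
        exact hKc.preimage b.continuous
      exact fun w hw => h2 hw
    have hKA : K.starProjection ∈ A := hA.starProjection_mem K hinv
    -- `K` lies below `p`
    have hKp : K.starProjection * p = K.starProjection := by
      refine mul_eq_of_forall isStarProjection_starProjection hp fun u => ?_
      have h1 : (⨆ i, U i) ≤ LinearMap.ker ((p - 1 : H →L[ℂ] H) : H →ₗ[ℂ] H) := by
        refine iSup_le fun i w hw => ?_
        have h2 : (U i).starProjection w = w := Submodule.starProjection_eq_self_iff.mpr hw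
        have h3 := proj_mul_comm isStarProjection_starProjection hp (hprops i).2.1
        have h4 := congrArg (fun T : H →L[ℂ] H => T w) h3
        simp only [ContinuousLinearMap.mul_apply, h2] at h4
        simp [h4]
      have h2 : K ≤ LinearMap.ker ((p - 1 : H →L[ℂ] H) : H →ₗ[ℂ] H) := by
        refine Submodule.topologicalClosure_minimal _ h1 ?_
        exact (isClosed_singleton (x := (0 : H))).preimage (p - 1 : H →L[ℂ] H).continuous
      have h3 := h2 (K.starProjection_apply_mem u)
      have h4 : (p - 1 : H →L[ℂ] H) (K.starProjection u) = 0 := h3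
      simpa [sub_eq_zero] using h4
    -- the mass passes to the limit
    have hne : Nonempty c := ⟨⟨y, hy⟩⟩
    have hdir : IsDirected c (· ≤ ·) := by
      refine ⟨fun i j => ?_⟩
      rcases hc.total i.2 j.2 with h | h
      · exact ⟨j, h, le_rfl⟩
      · exact ⟨i, le_rfl, h⟩
    have hom : om V K.starProjection ≤ t := by
      have hlim : Tendsto (fun i => om V (U i).starProjection) atTop (𝓝 (om V K.starProjection)) := by
        unfold om
        refine tendsto_finset_sum _ fun v _ => ?_
        exact ((Submodule.starProjection_tendsto_closure_iSup U hU v).norm).pow 2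
      exact le_of_tendsto' hlim fun i => (hprops i).2.2
    refine ⟨K, ⟨inferInstance, hKA, hKp, hom⟩, fun z hz => hUK ⟨z, hz⟩⟩
  obtain ⟨W, -, hW⟩ := zorn_le_nonempty₀ S hchain ⊥ hbot
  obtain ⟨hWproj, hWA, hWp, hWt⟩ := hW.prop
  refine ⟨W.starProjection, hWA, isStarProjection_starProjection, hWp, le_antisymm hWt ?_⟩
  by_contra hlt
  push Not at hlt
  -- add a small piece
  set e := W.starProjection with he_def
  have he : IsStarProjection e := isStarProjection_starProjection
  have hrest : IsStarProjection (p - e) := he.sub_of_mul_eq_left hp hWp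
  have hrestA : p - e ∈ A := A.sub_mem hpA hWA
  have hrestom : om V (p - e) = om V p - om V e := om_sub he hp hWp V
  have hrestpos : 0 < om V (p - e) := by rw [hrestom]; linarith
  obtain ⟨f, hfA, hf, hfr, hfpos, hfle⟩ :=
    hA.exists_small' hd V hrestA hrest hrestpos (η := t - om V e) (by linarith)
  have hfe : f * e = 0 := by
    have h1 : (p - e) * e = 0 := by
      rw [sub_mul, proj_mul_comm he hp hWp, he.isIdempotentElem.eq, sub_self]
    rw [← hfr, mul_assoc, h1, mul_zero]
  have hef : e * f = 0 := by
    rw [hA.comm hWA hfA, hfe]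
  have hfp : f * p = f := by
    have h1 : f * (p - e) = f := hfr
    rw [mul_sub, hfe, sub_zero] at h1
    exact h1
  have hsum : IsStarProjection (e + f) := he.add hf hef
  have hsumA : e + f ∈ A := A.add_mem hWA hfA
  obtain ⟨hRproj, hR⟩ := isStarProjection_iff_eq_starProjection_range.mp hsum
  set R : Submodule ℂ H := (e + f).range with hR_def
  have hRS : R ∈ S := by
    refine ⟨hRproj, ?_, ?_, ?_⟩
    · rw [← hR]; exact hsumA
    · rw [← hR, add_mul, hWp, hfp]
    · rw [← hR, om_add he hef]; linarith
  have hWR : W ≤ R := by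
    intro w hw
    have h1 : e w = w := Submodule.starProjection_eq_self_iff.mpr hw
    refine ⟨w, ?_⟩
    have h2 : f w = 0 := by
      rw [← h1, ← ContinuousLinearMap.mul_apply, hfe]; simp
    simp [h1, h2]
  have hRW : R ≤ W := hW.le_of_ge hRS hWR
  have hf0 : f = 0 := by
    ext u
    have h1 : (e + f) (f u) ∈ R := ⟨f u, rfl⟩
    have h2 : (e + f) (f u) = f u := by
      have h3 : e (f u) = 0 := by
        rw [← ContinuousLinearMap.mul_apply, hef]; simp
      have h4 : f (f u) = f u := proj_apply_apply hf u
      simp [h3, h4]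
    rw [h2] at h1
    have h5 : f u ∈ W := hRW h1
    have h6 : e (f u) = f u := Submodule.starProjection_eq_self_iff.mpr h5
    have h7 : e (f u) = 0 := by
      rw [← ContinuousLinearMap.mul_apply, hef]; simp
    simpa [h7] using h6.symm
  rw [hf0, om_zero] at hfpos
  exact lt_irrefl _ hfpos

/-- A projection of `A` can be cut into `n + 1` pieces of equal mass. -/
theorem IsMasa.exists_equal_pieces (hA : IsMasa A) (hd : IsDiffuse A) (V : Finset H) (n : ℕ) :
    ∀ p ∈ A, IsStarProjection p →
    ∃ c : Fin (n + 1) → (H →L[ℂ] H), (∀ i, c i ∈ A) ∧ (∀ i, IsStarProjection (c i)) ∧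
      (∀ i j, i ≠ j → c i * c j = 0) ∧ ∑ i, c i = p ∧ ∀ i, om V (c i) = om V p / (n + 1) := by
  induction n with
  | zero =>
    intro p hpA hp
    refine ⟨fun _ => p, fun _ => hpA, fun _ => hp, ?_, ?_, ?_⟩
    · intro i j hij
      exact absurd (Fin.ext (by omega)) hij
    · simp
    · intro i; simp
  | succ n ih =>
    intro p hpA hp
    have hp0 := om_nonneg V p
    have hn : (0:ℝ) < (n:ℝ) + 1 + 1 := by positivity
    obtain ⟨e, heA, he, hep, hee⟩ := hA.exists_om_eq hd V hpA hp
      (t := om V p / ((n:ℝ) + 1 + 1)) (by positivity) (div_le_self hp0 (by linarith [Nat.cast_nonneg (α := ℝ) n]))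
    have hrest : IsStarProjection (p - e) := he.sub_of_mul_eq_left hp hep
    have hrestA : p - e ∈ A := A.sub_mem hpA heA
    obtain ⟨c, hcA, hc, hco, hcs, hcm⟩ := ih _ hrestA hrest
    have hrestom : om V (p - e) = om V p - om V e := om_sub he hp hep V
    have hcle : ∀ i, c i * (p - e) = c i := by
      intro i
      rw [← hcs, Finset.mul_sum, Finset.sum_eq_single i]
      · exact (hc i).isIdempotentElem.eq
      · intro j _ hj
        exact hco i j hj.symm
      · simp
    have hce : ∀ i, c i * e = 0 := by
      intro i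
      have h1 : (p - e) * e = 0 := by
        rw [sub_mul, proj_mul_comm he hp hep, he.isIdempotentElem.eq, sub_self]
      rw [← hcle i, mul_assoc, h1, mul_zero]
    have hec : ∀ i, e * c i = 0 := by
      intro i
      rw [hA.comm heA (hcA i), hce]
    refine ⟨Fin.cons e c, ?_, ?_, ?_, ?_, ?_⟩
    · intro i
      refine Fin.cases ?_ (fun j => ?_) i
      · simpa using heA
      · simpa using hcA j
    · intro i
      refine Fin.cases ?_ (fun j => ?_) i
      · simpa using he
      · simpa using hc j
    · intro i j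
      refine Fin.cases ?_ (fun i' => ?_) i
      · refine Fin.cases ?_ (fun j' => ?_) j
        · intro h; exact absurd rfl h
        · intro _; simpa using hec j'
      · refine Fin.cases ?_ (fun j' => ?_) j
        · intro _; simpa using hce i'
        · intro h
          have h' : i' ≠ j' := fun h2 => h (by rw [h2])
          simpa using hco i' j' h'
    · rw [Fin.sum_univ_succ]
      simp [hcs]
    · intro i
      refine Fin.cases ?_ (fun j => ?_) i
      · simpa using hee
      · simp only [Fin.cons_succ, hcm j, hrestom, hee]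
        push_cast
        field_simp
        ring

/-- An equal-mass partition of `1`. -/
theorem IsMasa.exists_equal_partition (hA : IsMasa A) (hd : IsDiffuse A) (V : Finset H) (n : ℕ) :
    ∃ c : Fin (n + 1) → (H →L[ℂ] H), IsPartitionIn A c ∧
      ∀ i, om V (c i) = om V (1 : H →L[ℂ] H) / (n + 1) := by
  obtain ⟨c, hcA, hc, hco, hcs, hcm⟩ := hA.exists_equal_pieces hd V n 1 A.one_mem (IsStarProjection.one _)
  exact ⟨c, ⟨hcA, hc, hco, hcs⟩, hcm⟩

/-- A partition with all cells small on a finite set of vectors. -/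
theorem IsMasa.exists_fine_partition (hA : IsMasa A) (hd : IsDiffuse A) (V : Finset H) {γ : ℝ}
    (hγ : 0 < γ) :
    ∃ (n : ℕ) (c : Fin n → (H →L[ℂ] H)), IsPartitionIn A c ∧ ∀ i, ∀ v ∈ V, ‖c i v‖ ≤ γ := by
  obtain ⟨n, hn⟩ := exists_nat_gt (om V (1 : H →L[ℂ] H) / γ ^ 2)
  obtain ⟨c, hc, hcm⟩ := hA.exists_equal_partition hd V n
  refine ⟨n + 1, c, hc, fun i v hv => ?_⟩
  have h1 : ‖c i v‖ ^ 2 ≤ om V (c i) :=
    Finset.single_le_sum (f := fun v => ‖c i v‖ ^ 2) (fun _ _ => by positivity) hv
  have h2 : om V (c i) ≤ γ ^ 2 := by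
    rw [hcm i, div_le_iff₀ (by positivity)]
    rw [div_lt_iff₀ (by positivity)] at hn
    nlinarith [sq_nonneg γ]
  exact (pow_le_pow_iff_left₀ (norm_nonneg _) hγ.le (by norm_num)).mp (h1.trans h2)

end Vale.Agent.Lib.P078
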