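import Vale.Agent.Lib.P078.Commutant

open scoped InnerProductSpace ComplexConjugate
open Filter Topology

namespace Vale.Agent.Lib.P078

variable {H : Type*} [NormedAddCommGroup H] [InnerProductSpace ℂ H] [CompleteSpace H]

/-- Finite partitions in `A`, as a type. -/
structure FinPart (A : StarSubalgebra ℂ (H →L[ℂ] H)) where
  /-- the number of cells -/
  n : ℕ
  /-- the cells -/
  c : Fin n → (H →L[ℂ] H)
  isPart : IsPartitionIn A c

variable {A : StarSubalgebra ℂ (H →L[ℂ] H)}

/-- The refinement preorder: `S ≤ T` when each cell of `T` lies below a cell of `S`. -/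
instance : Preorder (FinPart A) where
  le S T := ∀ j, ∃ i, T.c j * S.c i = T.c j
  le_refl S j := ⟨j, (S.isPart.isProj j).isIdempotentElem.eq⟩
  le_trans S T U h1 h2 j := by
    obtain ⟨i, hi⟩ := h2 j
    obtain ⟨i', hi'⟩ := h1 i
    refine ⟨i', ?_⟩
    rw [← hi, mul_assoc, hi']

theorem FinPart.le_def (S T : FinPart A) : S ≤ T ↔ ∀ j, ∃ i, T.c j * S.c i = T.c j := Iff.rfl

/-- The trivial partition. -/
noncomputable def FinPart.one : FinPart A where
  n := 1
  c := fun _ => 1
  isPart := by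
    refine ⟨fun _ => A.one_mem, fun _ => IsStarProjection.one _, ?_, ?_⟩
    · intro i j hij
      exact absurd (Fin.ext (by omega)) hij
    · simp

instance : Nonempty (FinPart A) := ⟨FinPart.one⟩

/-- The partition `{p, 1 - p}`. -/
noncomputable def FinPart.ofProj {p : H →L[ℂ] H} (hpA : p ∈ A) (hp : IsStarProjection p) :
    FinPart A where
  n := 2
  c := ![p, 1 - p]
  isPart := by
    refine ⟨?_, ?_, ?_, ?_⟩
    · intro i
      fin_cases i
      · simpa using hpA
      · simpa using A.sub_mem A.one_mem hpA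
    · intro i
      fin_cases i
      · simpa using hp
      · simpa using hp.one_sub
    · intro i j hij
      fin_cases i <;> fin_cases j
      · exact absurd rfl hij
      · simpa using hp.mul_one_sub_self
      · simpa using hp.one_sub_mul_self
      · exact absurd rfl hij
    · simp [Fin.sum_univ_two]

/-- The common refinement of two partitions of a MASA. -/
noncomputable def FinPart.inf (hA : IsMasa A) (S T : FinPart A) : FinPart A where
  n := S.n * T.n
  c := fun k => S.c (finProdFinEquiv.symm k).1 * T.c (finProdFinEquiv.symm k).2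
  isPart := by
    refine ⟨?_, ?_, ?_, ?_⟩
    · intro k
      exact A.mul_mem (S.isPart.mem _) (T.isPart.mem _)
    · intro k
      exact (S.isPart.isProj _).mul (T.isPart.isProj _) (hA.comm (S.isPart.mem _) (T.isPart.mem _))
    · intro k l hkl
      have hne : finProdFinEquiv.symm k ≠ finProdFinEquiv.symm l := fun h => hkl (Equiv.injective _ h)
      have hcomm := hA.comm (T.isPart.mem (finProdFinEquiv.symm k).2) (S.isPart.mem (finProdFinEquiv.symm l).1)
      rw [mul_assoc, ← mul_assoc (T.c _) (S.c _), hcomm, mul_assoc, ← mul_assoc]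
      by_cases h1 : (finProdFinEquiv.symm k).1 = (finProdFinEquiv.symm l).1
      · have h2 : (finProdFinEquiv.symm k).2 ≠ (finProdFinEquiv.symm l).2 := fun h =>
          hne (Prod.ext h1 h)
        rw [T.isPart.orth _ _ h2, mul_zero]
      · rw [S.isPart.orth _ _ h1, zero_mul]
    · have h1 := Equiv.sum_comp (finProdFinEquiv (m := S.n) (n := T.n)).symm
        (fun p : Fin S.n × Fin T.n => S.c p.1 * T.c p.2)
      rw [h1, Fintype.sum_prod_type]
      simp_rw [← Finset.mul_sum]
      rw [T.isPart.sum_eq_one]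
      simp_rw [mul_one]
      exact S.isPart.sum_eq_one

theorem FinPart.directed (hA : IsMasa A) : IsDirected (FinPart A) (· ≤ ·) := by
  refine ⟨fun S T => ⟨FinPart.inf hA S T, ?_, ?_⟩⟩
  · intro k
    refine ⟨(finProdFinEquiv.symm k).1, ?_⟩
    change S.c _ * T.c _ * S.c _ = S.c _ * T.c _
    rw [mul_assoc, hA.comm (T.isPart.mem _) (S.isPart.mem _), ← mul_assoc,
      (S.isPart.isProj _).isIdempotentElem.eq]
  · intro k
    refine ⟨(finProdFinEquiv.symm k).2, ?_⟩
    change S.c _ * T.c _ * T.c _ = S.c _ * T.c _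
    rw [mul_assoc, (T.isPart.isProj _).isIdempotentElem.eq]

/-- The pinching by a partition finer than `{p, 1 - p}` commutes with `p`. -/
theorem pinching_comm_of_le {p : H →L[ℂ] H} (hpA : p ∈ A) (hp : IsStarProjection p) (hA : IsMasa A)
    {S : FinPart A} (hS : FinPart.ofProj hpA hp ≤ S) (x : H →L[ℂ] H) :
    p * pinching S.c x = pinching S.c x * p := by
  unfold pinching
  rw [Finset.mul_sum, Finset.sum_mul]
  refine Finset.sum_congr rfl fun j _ => ?_
  obtain ⟨i, hi⟩ := hS j
  have hcomm := hA.comm hpA (S.isPart.mem j)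
  have hcases : S.c j * p = S.c j ∨ S.c j * p = 0 := by
    fin_cases i
    · left; simpa [FinPart.ofProj] using hi
    · right
      have h1 : S.c j * (1 - p) = S.c j := by simpa [FinPart.ofProj] using hi
      rw [mul_sub, mul_one, sub_eq_self] at h1
      exact h1
  have h1 : p * (S.c j * x * S.c j) = (S.c j * p) * x * S.c j := by
    rw [← hcomm]; simp only [mul_assoc]
  rw [h1, mul_assoc (S.c j * x)]
  rcases hcases with h | h
  · rw [h]
  · rw [h]; simp

/-- The fine partitions form a neighbourhood of infinity for the refinement order. -/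
theorem eventually_fine (hA : IsMasa A) (hd : IsDiffuse A) (V : Finset H) {γ : ℝ} (hγ : 0 < γ) :
    ∀ᶠ S : FinPart A in atTop, ∀ j, ∀ v ∈ V, ‖S.c j v‖ ≤ γ := by
  obtain ⟨n, c, hc, hfine⟩ := hA.exists_fine_partition hd V hγ
  filter_upwards [eventually_ge_atTop (⟨n, c, hc⟩ : FinPart A)] with S hS j v hv
  obtain ⟨i, hi⟩ := hS j
  have h1 : S.c j v = S.c j (c i v) := (proj_mul_apply hi v).symm
  rw [h1]
  exact (proj_norm_le (S.isPart.isProj j) _).trans (hfine i v hv)

/-- The limit of the pinchings along an ultrafilter of refining partitions: an element of the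
MASA which is self-adjoint and has norm at most `‖x‖`. -/
theorem IsMasa.exists_limit (hA : IsMasa A) {x : H →L[ℂ] H} (hx : IsSelfAdjoint x) :
    ∃ a ∈ A, IsSelfAdjoint a ∧ ‖a‖ ≤ ‖x‖ ∧ ∃ U : Ultrafilter (FinPart A),
      (U : Filter (FinPart A)) ≤ atTop ∧
      ∀ v w, Tendsto (fun S : FinPart A => ⟪pinching S.c x v, w⟫_ℂ) U (𝓝 ⟪a v, w⟫_ℂ) := by
  classical
  have : IsDirected (FinPart A) (· ≤ ·) := FinPart.directed hA
  have hne : (atTop : Filter (FinPart A)).NeBot := atTop_neBot
  let U : Ultrafilter (FinPart A) := Ultrafilter.of atTop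
  have hU : (U : Filter (FinPart A)) ≤ atTop := Ultrafilter.of_le _
  let f : H → H → FinPart A → ℂ := fun v w S => ⟪pinching S.c x v, w⟫_ℂ
  have hf : ∀ v w S, ‖f v w S‖ ≤ ‖x‖ * ‖v‖ * ‖w‖ := by
    intro v w S
    refine (norm_inner_le_norm _ _).trans ?_
    exact mul_le_mul_of_nonneg_right (S.isPart.norm_pinching_apply_le x v) (norm_nonneg _)
  have hlim : ∀ v w, ∃ z : ℂ, ‖z‖ ≤ ‖x‖ * ‖v‖ * ‖w‖ ∧ Tendsto (f v w) U (𝓝 z) := by
    intro v w
    have hcomp : IsCompact (Metric.closedBall (0 : ℂ) (‖x‖ * ‖v‖ * ‖w‖)) :=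
      isCompact_closedBall _ _
    obtain ⟨z, hz, hzl⟩ := hcomp.ultrafilter_le_nhds (U.map (f v w)) (by
      rw [le_principal_iff, Ultrafilter.coe_map]
      exact Filter.mem_map.mpr (Filter.univ_mem' fun S => by simpa using hf v w S))
    refine ⟨z, by simpa using hz, hzl⟩
  choose L hLb hLt using hlim
  have hLadd₁ : ∀ v₁ v₂ w, L (v₁ + v₂) w = L v₁ w + L v₂ w := by
    intro v₁ v₂ w
    refine tendsto_nhds_unique (hLt _ _) (((hLt v₁ w).add (hLt v₂ w)).congr fun S => ?_)
    simp [f]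
  have hLsmul₁ : ∀ (c : ℂ) v w, L (c • v) w = conj c * L v w := by
    intro c v w
    refine tendsto_nhds_unique (hLt _ _) (((hLt v w).const_mul (conj c)).congr fun S => ?_)
    simp [f, mul_comm]
  have hLadd₂ : ∀ v w₁ w₂, L v (w₁ + w₂) = L v w₁ + L v w₂ := by
    intro v w₁ w₂
    refine tendsto_nhds_unique (hLt _ _) (((hLt v w₁).add (hLt v w₂)).congr fun S => ?_)
    simp [f]
  have hLsmul₂ : ∀ (c : ℂ) v w, L v (c • w) = c * L v w := by
    intro c v w
    refine tendsto_nhds_unique (hLt _ _) (((hLt v w).const_mul c).congr fun S => ?_)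
    simp [f]
  let B₀ : H →ₛₗ[starRingEnd ℂ] H →ₗ[ℂ] ℂ :=
    LinearMap.mk₂'ₛₗ (starRingEnd ℂ) (RingHom.id ℂ) L hLadd₁
      (fun c v w => by simpa using hLsmul₁ c v w) hLadd₂ (fun c v w => by simpa using hLsmul₂ c v w)
  let B : H →L⋆[ℂ] H →L[ℂ] ℂ := B₀.mkContinuous₂ ‖x‖ (fun v w => hLb v w)
  let a : H →L[ℂ] H := InnerProductSpace.continuousLinearMapOfBilin B
  have ha : ∀ v w, ⟪a v, w⟫_ℂ = L v w := by
    intro v w
    exact InnerProductSpace.continuousLinearMapOfBilin_apply B v w
  have hsym : ∀ v w, L v w = conj (L w v) := by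
    intro v w
    have h1 : Tendsto (fun S => conj (f w v S)) U (𝓝 (conj (L w v))) :=
      (Complex.continuous_conj.tendsto _).comp (hLt w v)
    refine tendsto_nhds_unique (hLt v w) (h1.congr fun S => ?_)
    simp only [f]
    rw [inner_conj_symm, ← inner_selfAdjoint (S.isPart.pinching_isSelfAdjoint hx)]
  have hnorm : ‖a‖ ≤ ‖x‖ := by
    refine ContinuousLinearMap.opNorm_le_bound _ (norm_nonneg _) fun v => ?_
    by_cases h0 : a v = 0
    · rw [h0, norm_zero]; positivity
    have h1 : ‖a v‖ ^ 2 ≤ ‖x‖ * ‖v‖ * ‖a v‖ := by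
      have h2 := hLb v (a v)
      rw [← ha, inner_self_eq_norm_sq_to_K] at h2
      simpa using h2
    have h3 : 0 < ‖a v‖ := norm_pos_iff.mpr h0
    nlinarith
  have hself : IsSelfAdjoint a := by
    rw [ContinuousLinearMap.isSelfAdjoint_iff_isSymmetric]
    intro v w
    change ⟪a v, w⟫_ℂ = ⟪v, a w⟫_ℂ
    rw [ha, hsym, ← ha, inner_conj_symm]
  have hcomm : ∀ p ∈ A, IsStarProjection p → a * p = p * a := by
    intro p hpA hp
    ext v
    refine ext_inner_right ℂ fun w => ?_
    simp only [ContinuousLinearMap.mul_apply]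
    rw [inner_selfAdjoint hp.isSelfAdjoint (a v) w, ha, ha]
    refine tendsto_nhds_unique_of_eventuallyEq (hLt _ _) (hLt _ _) ?_
    have h1 : ∀ᶠ S : FinPart A in (U : Filter (FinPart A)), FinPart.ofProj hpA hp ≤ S :=
      hU (eventually_ge_atTop _)
    filter_upwards [h1] with S hS
    have h2 := pinching_comm_of_le hpA hp hA hS x
    have h3 := congrArg (fun T : H →L[ℂ] H => T v) h2
    simp only [ContinuousLinearMap.mul_apply] at h3
    simp only [f]
    rw [← h3, inner_selfAdjoint hp.isSelfAdjoint]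
  refine ⟨a, hA.mem_of_commute_projections hcomm, hself, hnorm, U, hU, fun v w => ?_⟩
  rw [ha]
  exact hLt v w

/-- The form used below: a single partition close to the limit on a finite set of vectors, with
all cells small on these vectors. -/
theorem IsMasa.exists_limit_partition (hA : IsMasa A) (hd : IsDiffuse A) {x : H →L[ℂ] H}
    (hx : IsSelfAdjoint x) :
    ∃ a ∈ A, IsSelfAdjoint a ∧ ‖a‖ ≤ ‖x‖ ∧
      ∀ (V : Finset H) (γ η : ℝ), 0 < γ → 0 < η →
      ∃ (n : ℕ) (c : Fin n → (H →L[ℂ] H)), IsPartitionIn A c ∧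
        (∀ j, ∀ v ∈ V, ‖c j v‖ ≤ γ) ∧
        ∀ v ∈ V, ∀ w ∈ V, ‖⟪pinching c x v, w⟫_ℂ - ⟪a v, w⟫_ℂ‖ < η := by
  obtain ⟨a, haA, has, han, U, hU, hlim⟩ := hA.exists_limit hx
  refine ⟨a, haA, has, han, fun V γ η hγ hη => ?_⟩
  have h1 : ∀ᶠ S : FinPart A in (U : Filter (FinPart A)), ∀ j, ∀ v ∈ V, ‖S.c j v‖ ≤ γ :=
    hU (eventually_fine hA hd V hγ)
  have h2 : ∀ᶠ S : FinPart A in (U : Filter (FinPart A)),
      ∀ v ∈ V, ∀ w ∈ V, ‖⟪pinching S.c x v, w⟫_ℂ - ⟪a v, w⟫_ℂ‖ < η := by
    rw [Filter.eventually_all_finset]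
    intro v _
    rw [Filter.eventually_all_finset]
    intro w _
    have h3 := (hlim v w).sub_const ⟪a v, w⟫_ℂ
    rw [sub_self] at h3
    have h4 := h3.norm
    rw [norm_zero] at h4
    exact h4.eventually (gt_mem_nhds hη)
  obtain ⟨S, hS1, hS2⟩ := (h1.and h2).exists
  exact ⟨S.n, S.c, S.isPart, hS1, hS2⟩

end Vale.Agent.Lib.P078
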