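import Vale.Agent.Lib.P078.Upper

open scoped InnerProductSpace ComplexConjugate
open Filter Topology

namespace Vale.Agent.Lib.P078

variable {H : Type*} [NormedAddCommGroup H] [InnerProductSpace ℂ H] [CompleteSpace H]
variable {A : StarSubalgebra ℂ (H →L[ℂ] H)}

section Unimodular

variable {ι : Type*} [Fintype ι] {c : ι → H →L[ℂ] H}

theorem IsPartitionIn.inner_sum_smul (hc : IsPartitionIn A c) (z z' : ι → ℂ) (f : H) :
    ⟪∑ i, z i • c i f, ∑ j, z' j • c j f⟫_ℂ = ∑ i, conj (z i) * z' i * ((‖c i f‖ ^ 2 : ℝ) : ℂ) := by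
  classical
  rw [sum_inner]
  refine Finset.sum_congr rfl fun i _ => ?_
  rw [inner_sum, Finset.sum_eq_single i]
  · rw [inner_smul_left, inner_smul_right, inner_self_eq_norm_sq_to_K]
    push_cast
    simp only [Complex.coe_algebraMap]
    ring
  · intro j _ hj
    rw [inner_smul_left, inner_smul_right, hc.inner_apply_of_ne hj.symm]
    simp
  · simp

/-- A unimodular combination of the cells is a unitary element of the MASA. -/
theorem IsPartitionIn.star_mul_unimodular (hc : IsPartitionIn A c) (z : ι → ℂ)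
    (hz : ∀ i, ‖z i‖ = 1) :
    star (∑ i, z i • c i) * (∑ i, z i • c i) = 1 := by
  classical
  rw [star_sum, Finset.sum_mul_sum]
  have h1 : ∀ i, ∑ j, star (z i • c i) * (z j • c j) = c i := by
    intro i
    rw [Finset.sum_eq_single i]
    · rw [star_smul, (hc.isProj i).isSelfAdjoint.star_eq, smul_mul_smul_comm,
        (hc.isProj i).isIdempotentElem.eq]
      have h2 : star (z i) * z i = 1 := by
        rw [Complex.star_def, Complex.conj_mul', hz i]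
        simp
      rw [h2, one_smul]
    · intro j _ hj
      rw [star_smul, (hc.isProj i).isSelfAdjoint.star_eq, smul_mul_smul_comm,
        hc.orth i j hj.symm, smul_zero]
    · simp
  rw [Finset.sum_congr rfl fun i _ => h1 i]
  exact hc.sum_eq_one

end Unimodular

/-- Test vectors: `m + 1` orthonormal vectors defining on the MASA the same state as `f`. -/
theorem IsMasa.exists_test_vectors (hA : IsMasa A) (hd : IsDiffuse A) {f : H} (hf : ‖f‖ = 1)
    (m : ℕ) :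
    ∃ g : Fin (m + 1) → H, Orthonormal ℂ g ∧ ∀ k, ∀ b ∈ A, ⟪g k, b (g k)⟫_ℂ = ⟪f, b f⟫_ℂ := by
  classical
  obtain ⟨c, hc, hcm⟩ := hA.exists_equal_partition hd {f} m
  have hm0 : ((m : ℝ) + 1) ≠ 0 := by positivity
  have hcf : ∀ i, ‖c i f‖ ^ 2 = 1 / ((m : ℝ) + 1) := by
    intro i
    have := hcm i
    simpa [om, hf] using this
  let ζ : ℂ := Complex.exp (2 * Real.pi * Complex.I / ((m + 1 : ℕ) : ℂ))
  have hζ : IsPrimitiveRoot ζ (m + 1) := Complex.isPrimitiveRoot_exp (m + 1) (Nat.succ_ne_zero m)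
  have hζn : ‖ζ‖ = 1 := Complex.norm_eq_one_of_pow_eq_one hζ.pow_eq_one (Nat.succ_ne_zero m)
  let z : Fin (m + 1) → Fin (m + 1) → ℂ := fun k i => ζ ^ ((k : ℕ) * (i : ℕ))
  have hz : ∀ k i, ‖z k i‖ = 1 := by
    intro k i
    simp [z, hζn]
  let u : Fin (m + 1) → (H →L[ℂ] H) := fun k => ∑ i, z k i • c i
  let g : Fin (m + 1) → H := fun k => u k f
  have hgu : ∀ k, g k = ∑ i, z k i • c i f := by
    intro k
    simp [g, u]
  have huA : ∀ k, u k ∈ A := fun k => sum_mem fun i _ => A.smul_mem (hc.mem i) _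
  refine ⟨g, ?_, ?_⟩
  · rw [orthonormal_iff_ite]
    intro k l
    rw [hgu, hgu, hc.inner_sum_smul]
    simp_rw [hcf]
    have hgeom : ∀ i : Fin (m + 1), conj (z k i) * z l i =
        (conj (ζ ^ (k : ℕ)) * ζ ^ (l : ℕ)) ^ (i : ℕ) := by
      intro i
      simp only [z]
      rw [mul_pow, ← map_pow, ← pow_mul, ← pow_mul]
    simp_rw [hgeom]
    rw [← Finset.sum_mul, Fin.sum_univ_eq_sum_range (fun i => (conj (ζ ^ (k : ℕ)) * ζ ^ (l : ℕ)) ^ i)]
    by_cases hkl : k = l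
    · subst hkl
      have h1 : conj (ζ ^ (k : ℕ)) * ζ ^ (k : ℕ) = 1 := by
        rw [Complex.conj_mul', norm_pow, hζn]
        simp
      rw [h1]
      simp
      field_simp
    · rw [if_neg hkl]
      have h1 : conj (ζ ^ (k : ℕ)) * ζ ^ (l : ℕ) ≠ 1 := by
        intro h
        apply hkl
        have h2 : ‖ζ ^ (k : ℕ)‖ = 1 := by simp [hζn]
        have h3 : conj (ζ ^ (k : ℕ)) * ζ ^ (k : ℕ) = 1 := by
          rw [Complex.conj_mul', h2]
          simp
        have h4 : ζ ^ (l : ℕ) = ζ ^ (k : ℕ) := by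
          have h5 : conj (ζ ^ (k : ℕ)) ≠ 0 := by
            intro h6
            rw [h6, zero_mul] at h3
            exact zero_ne_one h3
          exact mul_left_cancel₀ h5 (h.trans h3.symm)
        exact Fin.ext (hζ.pow_inj k.2 l.2 h4.symm)
      have h2 : (conj (ζ ^ (k : ℕ)) * ζ ^ (l : ℕ)) ^ (m + 1) = 1 := by
        have h3 : ζ ^ (m + 1) = 1 := hζ.pow_eq_one
        rw [mul_pow, ← map_pow, ← pow_mul, ← pow_mul, mul_comm (k : ℕ), mul_comm (l : ℕ),
          pow_mul, pow_mul, h3]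
        simp
      rw [geom_sum_eq h1, h2]
      simp
  · intro k b hb
    have h1 : ⟪g k, b (g k)⟫_ℂ = ⟪f, (star (u k) * b * u k) f⟫_ℂ := by
      simp only [g, ContinuousLinearMap.mul_apply]
      rw [ContinuousLinearMap.star_eq_adjoint, ContinuousLinearMap.adjoint_inner_right]
    have h2 : star (u k) * b * u k = b := by
      have hs : star (u k) ∈ A := star_mem (huA k)
      rw [hA.comm hs hb, mul_assoc, hc.star_mul_unimodular (z k) (hz k), mul_one]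
    rw [h1, h2]

/-- The quadratic form of a pinching of a rank one projection. -/
theorem IsPartitionIn.inner_pinching_rankOne {ι : Type*} [Fintype ι] {P : ι → H →L[ℂ] H}
    (hP : IsPartitionIn A P) (f w : H) :
    ⟪w, pinching P (InnerProductSpace.rankOne ℂ f f) w⟫_ℂ =
      ((∑ i, ‖⟪f, P i w⟫_ℂ‖ ^ 2 : ℝ) : ℂ) := by
  unfold pinching
  simp only [ContinuousLinearMap.sum_apply, inner_sum]
  push_cast
  refine Finset.sum_congr rfl fun i _ => ?_
  simp only [Function.comp_apply, InnerProductSpace.rankOne_apply]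
  rw [map_smul, inner_smul_right, ← inner_selfAdjoint (hP.isProj i).isSelfAdjoint,
    ← inner_conj_symm w (P i f), Complex.mul_conj, Complex.normSq_eq_norm_sq]
  push_cast
  rfl

theorem IsPartitionIn.pinching_one {ι : Type*} [Fintype ι] {P : ι → H →L[ℂ] H}
    (hP : IsPartitionIn A P) : pinching P (1 : H →L[ℂ] H) = 1 := by
  unfold pinching
  simp_rw [mul_one, (hP.isProj _).isIdempotentElem.eq]
  exact hP.sum_eq_one

/-- Comparison of a quadratic form with the one of its compression. -/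
theorem norm_inner_le_of_compress {q y : H →L[ℂ] H} (hq : IsStarProjection q) {w : H}
    (hw : ‖w‖ = 1) {δ : ℝ} (hδ : ‖(1 - q) w‖ < δ) :
    ‖⟪w, y w⟫_ℂ‖ ≤ ‖q * y * q‖ + 2 * ‖y‖ * δ := by
  have hqw : ‖q w‖ ≤ 1 := by
    rw [← hw]; exact proj_norm_le hq w
  set ρ : H := (1 - q) w with hρ
  have h1 : w = q w + ρ := by simp [hρ]
  have h2 : ⟪w, y w⟫_ℂ = ⟪w, (q * y * q) w⟫_ℂ + ⟪ρ, y (q w)⟫_ℂ + ⟪w, y ρ⟫_ℂ := by
    have h3 : ⟪w, (q * y * q) w⟫_ℂ = ⟪q w, y (q w)⟫_ℂ := by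
      simp only [ContinuousLinearMap.mul_apply]
      rw [inner_selfAdjoint hq.isSelfAdjoint]
    rw [h3]
    have h4 : y w = y (q w) + y ρ := by
      rw [← map_add, ← h1]
    rw [h4, inner_add_right]
    have h5 : ⟪w, y (q w)⟫_ℂ = ⟪q w, y (q w)⟫_ℂ + ⟪ρ, y (q w)⟫_ℂ := by
      rw [← inner_add_left, ← h1]
    rw [h5]
  rw [h2]
  have hρ0 : 0 ≤ δ := (norm_nonneg _).trans hδ.le
  have h6 : ‖⟪w, (q * y * q) w⟫_ℂ‖ ≤ ‖q * y * q‖ := by
    calc _ ≤ ‖w‖ * ‖(q * y * q) w‖ := norm_inner_le_norm _ _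
      _ ≤ ‖w‖ * (‖q * y * q‖ * ‖w‖) := by
          gcongr
          exact ContinuousLinearMap.le_opNorm _ _
      _ = ‖q * y * q‖ := by rw [hw]; ring
  have h7 : ‖⟪ρ, y (q w)⟫_ℂ‖ ≤ δ * ‖y‖ := by
    calc _ ≤ ‖ρ‖ * ‖y (q w)‖ := norm_inner_le_norm _ _
      _ ≤ δ * (‖y‖ * ‖q w‖) := by
          gcongr
          exact ContinuousLinearMap.le_opNorm _ _
      _ ≤ δ * (‖y‖ * 1) := by gcongr
      _ = δ * ‖y‖ := by ring
  have h8 : ‖⟪w, y ρ⟫_ℂ‖ ≤ δ * ‖y‖ := by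
    calc _ ≤ ‖w‖ * ‖y ρ‖ := norm_inner_le_norm _ _
      _ ≤ 1 * (‖y‖ * ‖ρ‖) := by
          rw [hw]
          gcongr
          exact ContinuousLinearMap.le_opNorm _ _
      _ ≤ 1 * (‖y‖ * δ) := by gcongr
      _ = δ * ‖y‖ := by ring
  calc _ ≤ ‖⟪w, (q * y * q) w⟫_ℂ + ⟪ρ, y (q w)⟫_ℂ‖ + ‖⟪w, y ρ⟫_ℂ‖ := norm_add_le _ _
    _ ≤ ‖⟪w, (q * y * q) w⟫_ℂ‖ + ‖⟪ρ, y (q w)⟫_ℂ‖ + ‖⟪w, y ρ⟫_ℂ‖ := by
        gcongr
        exact norm_add_le _ _
    _ ≤ ‖q * y * q‖ + δ * ‖y‖ + δ * ‖y‖ := by gcongr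
    _ = _ := by ring

/-- **Lower bound.** For a diffuse MASA of `B(H)`, `H ≠ 0`, some self-adjoint operator of norm
one is not `(ε, r)` so-pavable when `r ε < 1`: the reflection `2 |f⟩⟨f| - 1` for any unit `f`. -/
theorem not_soPavable_of_lt_one [Nontrivial H] (hA : IsMasa A) (hd : IsDiffuse A) {r : ℕ}
    (hr : 0 < r) {ε : ℝ} (hε : r * ε < 1) :
    ∃ x : H →L[ℂ] H, IsSelfAdjoint x ∧ ‖x‖ = 1 ∧ ¬ SoPavable A ε r x := by
  classical
  obtain ⟨f₀, hf₀⟩ := exists_ne (0 : H)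
  have hf₀' : ‖f₀‖ ≠ 0 := norm_ne_zero_iff.mpr hf₀
  let f : H := ((‖f₀‖ : ℂ)⁻¹) • f₀
  have hf : ‖f‖ = 1 := by
    simp only [f, norm_smul, norm_inv, Complex.norm_real, norm_norm]
    field_simp
  let E : H →L[ℂ] H := InnerProductSpace.rankOne ℂ f f
  have hE : IsStarProjection E := InnerProductSpace.isStarProjection_rankOne_self hf
  let x : H →L[ℂ] H := (2 : ℂ) • E - 1
  have hxs : IsSelfAdjoint x := by
    change IsSelfAdjoint ((2 : ℂ) • E - 1)
    rw [isSelfAdjoint_iff, star_sub, star_one, star_smul, hE.isSelfAdjoint.star_eq]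
    simp
  have hxn : ‖x‖ = 1 := by
    have hiso : ∀ v, ‖x v‖ = ‖v‖ := by
      intro v
      have h1 : x v = E v - (v - E v) := by
        have h0 : x v = (2 : ℂ) • E v - v := rfl
        rw [h0, two_smul]
        abel
      have h2 : ⟪E v, v - E v⟫_ℂ = 0 := by
        rw [inner_selfAdjoint hE.isSelfAdjoint, map_sub, proj_apply_apply hE, sub_self,
          inner_zero_right]
      have h3 : ‖E v - (v - E v)‖ ^ 2 = ‖E v‖ ^ 2 + ‖v - E v‖ ^ 2 := by
        have h4 := norm_sub_sq (𝕜 := ℂ) (E v) (v - E v)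
        rw [h2] at h4
        simpa using h4
      have h5 : ‖v‖ ^ 2 = ‖E v‖ ^ 2 + ‖v - E v‖ ^ 2 := by
        have h6 := norm_add_sq_eq_norm_sq_add_norm_sq_of_inner_eq_zero _ _ h2
        rw [add_sub_cancel] at h6
        nlinarith [h6]
      rw [h1]
      have h7 : ‖E v - (v - E v)‖ ^ 2 = ‖v‖ ^ 2 := by rw [h3, h5]
      exact (pow_left_inj₀ (norm_nonneg _) (norm_nonneg _) (by norm_num)).mp h7
    apply le_antisymm
    · refine ContinuousLinearMap.opNorm_le_bound _ zero_le_one fun v => ?_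
      rw [hiso, one_mul]
    · have h1 := x.le_opNorm f
      rw [hiso, hf, mul_one] at h1
      exact h1
  refine ⟨x, hxs, hxn, fun hpav => ?_⟩
  have hr0 : (0 : ℝ) < r := by exact_mod_cast hr
  set τ : ℝ := 1 / r - ε with hτ
  have hτpos : 0 < τ := by
    rw [hτ, sub_pos, lt_div_iff₀ hr0]; linarith
  -- the test vectors
  obtain ⟨m, hm⟩ := exists_nat_gt (2 / τ)
  obtain ⟨g, hgo, hgA⟩ := hA.exists_test_vectors hd hf m
  have hgn : ∀ k, ‖g k‖ = 1 := fun k => hgo.1 k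
  have hm1 : 1 / ((m : ℝ) + 1) < τ / 2 := by
    have h1 : (0 : ℝ) < (m : ℝ) + 1 := by positivity
    rw [div_lt_iff₀ hτpos] at hm
    rw [div_lt_iff₀ h1]
    nlinarith
  obtain ⟨P, hP, a, haA, has, han, q, hq, hqF, hqn⟩ :=
    hpav (insert f (Finset.univ.image g)) (τ / 16) (by positivity)
  rw [hxn, mul_one] at hqn
  rw [hxn] at han
  set y : H →L[ℂ] H := pinching P x - a with hy
  have hyn : ‖y‖ ≤ 2 := by
    have h1 := hP.norm_pinching_le x
    rw [hxn] at h1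
    calc ‖y‖ ≤ ‖pinching P x‖ + ‖a‖ := norm_sub_le _ _
      _ ≤ 1 + 1 := add_le_add h1 han
      _ = 2 := by norm_num
  have hpin : pinching P x = (2 : ℂ) • pinching P E - 1 := by
    have h1 := hP.pinching_one
    unfold pinching at h1 ⊢
    rw [← h1, Finset.smul_sum, ← Finset.sum_sub_distrib]
    refine Finset.sum_congr rfl fun i _ => ?_
    simp only [x, mul_sub, sub_mul, mul_smul_comm, smul_mul_assoc]
  -- the form at a unit vector
  have hform : ∀ w : H, ‖w‖ = 1 → ⟪w, y w⟫_ℂ =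
      ((2 * ∑ i, ‖⟪f, P i w⟫_ℂ‖ ^ 2 - 1 : ℝ) : ℂ) - ⟪w, a w⟫_ℂ := by
    intro w hw
    rw [hy, ContinuousLinearMap.sub_apply, inner_sub_right, hpin, ContinuousLinearMap.sub_apply,
      inner_sub_right, ContinuousLinearMap.smul_apply, inner_smul_right,
      hP.inner_pinching_rankOne, ContinuousLinearMap.one_apply, inner_self_eq_norm_sq_to_K, hw]
    push_cast
    simp
  -- the estimate at a test vector
  have hbound : ∀ w ∈ insert f (Finset.univ.image g), ‖w‖ = 1 → ‖⟪w, y w⟫_ℂ‖ ≤ ε + τ / 4 := by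
    intro w hw hwn
    have h1 := norm_inner_le_of_compress (y := y) hq hwn (hqF w hw)
    have h2 : 2 * ‖y‖ * (τ / 16) ≤ τ / 4 := by nlinarith [norm_nonneg y]
    linarith
  -- Cauchy-Schwarz at `f`
  have hsum1 : ∑ i, ‖P i f‖ ^ 2 = 1 := by
    rw [hP.sum_norm_sq, hf]; norm_num
  have hA1 : 1 / (r : ℝ) ≤ ∑ i, ‖⟪f, P i f⟫_ℂ‖ ^ 2 := by
    have h1 : ∀ i, ‖⟪f, P i f⟫_ℂ‖ = ‖P i f‖ ^ 2 := by
      intro i
      rw [← inner_proj_self (hP.isProj i), inner_self_eq_norm_sq_to_K]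
      simp
    simp_rw [h1]
    have h2 := sq_sum_le_card_mul_sum_sq (s := Finset.univ) (f := fun i => ‖P i f‖ ^ 2)
    rw [hsum1] at h2
    simp only [Finset.card_univ, Fintype.card_fin, one_pow] at h2
    rw [div_le_iff₀ hr0]
    linarith
  -- Bessel at the test vectors
  obtain ⟨k, hk⟩ : ∃ k, ∑ i, ‖⟪f, P i (g k)⟫_ℂ‖ ^ 2 ≤ 1 / ((m : ℝ) + 1) := by
    by_contra hcon
    push Not at hcon
    have h1 : ∑ _k : Fin (m + 1), 1 / ((m : ℝ) + 1) <
        ∑ k : Fin (m + 1), ∑ i, ‖⟪f, P i (g k)⟫_ℂ‖ ^ 2 :=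
      Finset.sum_lt_sum_of_nonempty Finset.univ_nonempty fun k _ => hcon k
    have h2 : ∑ _k : Fin (m + 1), 1 / ((m : ℝ) + 1) = 1 := by
      simp
      field_simp
    rw [h2, Finset.sum_comm] at h1
    have h3 : ∀ i, ∑ k : Fin (m + 1), ‖⟪f, P i (g k)⟫_ℂ‖ ^ 2 ≤ ‖P i f‖ ^ 2 := by
      intro i
      have h4 := hgo.sum_inner_products_le (s := Finset.univ) (P i f)
      refine le_trans (le_of_eq ?_) h4
      refine Finset.sum_congr rfl fun k _ => ?_
      rw [← inner_selfAdjoint (hP.isProj i).isSelfAdjoint, ← inner_conj_symm, RCLike.norm_conj]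
    have h5 := Finset.sum_le_sum fun i (_ : i ∈ Finset.univ) => h3 i
    rw [hsum1] at h5
    linarith
  -- conclusion
  have hfm : f ∈ insert f (Finset.univ.image g) := Finset.mem_insert_self _ _
  have hgm : g k ∈ insert f (Finset.univ.image g) :=
    Finset.mem_insert_of_mem (Finset.mem_image_of_mem _ (Finset.mem_univ k))
  have h1 := hbound f hfm hf
  have h2 := hbound (g k) hgm (hgn k)
  have h3 := hform f hf
  have h4 := hform (g k) (hgn k)
  have h5 : ⟪g k, a (g k)⟫_ℂ = ⟪f, a f⟫_ℂ := hgA k a haA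
  rw [h5] at h4
  have h6 : ⟪f, y f⟫_ℂ - ⟪g k, y (g k)⟫_ℂ =
      ((2 * (∑ i, ‖⟪f, P i f⟫_ℂ‖ ^ 2 - ∑ i, ‖⟪f, P i (g k)⟫_ℂ‖ ^ 2) : ℝ) : ℂ) := by
    rw [h3, h4]
    push_cast
    ring
  have h7 : ‖⟪f, y f⟫_ℂ - ⟪g k, y (g k)⟫_ℂ‖ ≤ 2 * (ε + τ / 4) :=
    (norm_sub_le _ _).trans (by linarith)
  rw [h6, Complex.norm_real, Real.norm_eq_abs] at h7
  have h8 := le_abs_self (2 * (∑ i, ‖⟪f, P i f⟫_ℂ‖ ^ 2 - ∑ i, ‖⟪f, P i (g k)⟫_ℂ‖ ^ 2))
  have h9 : τ = 1 / (r : ℝ) - ε := hτ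
  linarith

end Vale.Agent.Lib.P078
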