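import Vale.Agent.Lib.P078.Lower

open scoped InnerProductSpace

namespace Vale.Agent.Lib.P078

variable {H : Type*} [NormedAddCommGroup H] [InnerProductSpace ℂ H] [CompleteSpace H]
variable {A : StarSubalgebra ℂ (H →L[ℂ] H)}

/-- The paving number of a diffuse MASA of `B(H)` is pinned down up to the integer rounding of
`1 / ε`. -/
theorem paving_number [Nontrivial H] (hA : IsMasa A) (hd : IsDiffuse A) {ε : ℝ} (hε : 0 < ε) :
    (∀ r : ℕ, 0 < r → 1 < r * ε → ∀ x : H →L[ℂ] H, IsSelfAdjoint x → SoPavable A ε r x) ∧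
    (∀ r : ℕ, 0 < r → r * ε < 1 → ∃ x : H →L[ℂ] H, IsSelfAdjoint x ∧ ‖x‖ = 1 ∧
      ¬ SoPavable A ε r x) ∧
    ∃ n : ℕ, IsLeast {r : ℕ | 0 < r ∧ ∀ x : H →L[ℂ] H, IsSelfAdjoint x → SoPavable A ε r x} n ∧
      1 / ε ≤ n ∧ (n : ℝ) ≤ 1 / ε + 1 := by
  classical
  have h1 : ∀ r : ℕ, 0 < r → 1 < r * ε → ∀ x : H →L[ℂ] H, IsSelfAdjoint x → SoPavable A ε r x :=
    fun r hr hrε x hx => soPavable_of_one_lt hA hd hx hr hrε
  have h2 : ∀ r : ℕ, 0 < r → r * ε < 1 → ∃ x : H →L[ℂ] H, IsSelfAdjoint x ∧ ‖x‖ = 1 ∧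
      ¬ SoPavable A ε r x :=
    fun r hr hrε => not_soPavable_of_lt_one hA hd hr hrε
  refine ⟨h1, h2, ?_⟩
  let S : Set ℕ := {r : ℕ | 0 < r ∧ ∀ x : H →L[ℂ] H, IsSelfAdjoint x → SoPavable A ε r x}
  -- an element of the set
  let r₀ : ℕ := ⌊1 / ε⌋₊ + 1
  have hr₀ : 1 < (r₀ : ℝ) * ε := by
    have h3 : 1 / ε < (r₀ : ℝ) := by
      simp only [r₀]
      push_cast
      exact Nat.lt_floor_add_one _
    rwa [div_lt_iff₀ hε] at h3
  have hr₀S : r₀ ∈ S := ⟨Nat.succ_pos _, h1 r₀ (Nat.succ_pos _) hr₀⟩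
  have hne : S.Nonempty := ⟨r₀, hr₀S⟩
  refine ⟨sInf S, ⟨Nat.sInf_mem hne, fun r hr => Nat.sInf_le hr⟩, ?_, ?_⟩
  · have hmem : sInf S ∈ S := Nat.sInf_mem hne
    rw [div_le_iff₀ hε]
    by_contra hlt
    push Not at hlt
    obtain ⟨x, hx, -, hnot⟩ := h2 _ hmem.1 hlt
    exact hnot (hmem.2 x hx)
  · have hle : sInf S ≤ r₀ := Nat.sInf_le hr₀S
    have h3 : ((sInf S : ℕ) : ℝ) ≤ (r₀ : ℝ) := by exact_mod_cast hle
    have h4 : (r₀ : ℝ) ≤ 1 / ε + 1 := by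
      simp only [r₀]
      push_cast
      have := Nat.floor_le (a := 1 / ε) (by positivity)
      linarith
    exact h3.trans h4

end Vale.Agent.Lib.P078
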