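import Vale.Agent.Lib.P078.Limit
import Vale.Agent.Lib.P078.Coloring

open scoped InnerProductSpace ComplexConjugate
open Filter Topology

namespace Vale.Agent.Lib.P078

variable {H : Type*} [NormedAddCommGroup H] [InnerProductSpace ℂ H] [CompleteSpace H]
variable {A : StarSubalgebra ℂ (H →L[ℂ] H)}

/-- Compression of an operator to a finite-dimensional subspace: the norm is controlled by the
matrix entries. -/
theorem norm_compress_le {W : Submodule ℂ H} [W.HasOrthogonalProjection] {d : ℕ}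
    (e : OrthonormalBasis (Fin d) ℂ W) (Z : H →L[ℂ] H) {θ : ℝ} (hθ : 0 ≤ θ)
    (h : ∀ b c, ‖⟪(e c : H), Z (e b : H)⟫_ℂ‖ ≤ θ) :
    ‖W.starProjection * Z * W.starProjection‖ ≤ d ^ 2 * θ := by
  have hq : ∀ v : H, W.starProjection v = ∑ b, ⟪(e b : H), v⟫_ℂ • (e b : H) := by
    intro v
    rw [Submodule.starProjection_apply, e.orthogonalProjectionOnto_apply_eq_sum]
    simp
  have hform : ∀ v w : H, ‖⟪w, (W.starProjection * Z * W.starProjection) v⟫_ℂ‖ ≤
      d ^ 2 * θ * ‖w‖ * ‖v‖ := by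
    intro v w
    have h1 : ⟪w, (W.starProjection * Z * W.starProjection) v⟫_ℂ =
        ⟪W.starProjection w, Z (W.starProjection v)⟫_ℂ := by
      simp only [ContinuousLinearMap.mul_apply]
      rw [inner_selfAdjoint (isStarProjection_starProjection (U := W)).isSelfAdjoint]
    have h2 : ⟪W.starProjection w, Z (W.starProjection v)⟫_ℂ =
        ∑ c, ∑ b, conj ⟪(e c : H), w⟫_ℂ * (⟪(e b : H), v⟫_ℂ * ⟪(e c : H), Z (e b : H)⟫_ℂ) := by
      rw [hq w, hq v, map_sum, sum_inner]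
      refine Finset.sum_congr rfl fun c _ => ?_
      rw [inner_smul_left, inner_sum, Finset.mul_sum]
      refine Finset.sum_congr rfl fun b _ => ?_
      rw [map_smul, inner_smul_right]
    rw [h1, h2]
    calc ‖∑ c, ∑ b, conj ⟪(e c : H), w⟫_ℂ * (⟪(e b : H), v⟫_ℂ * ⟪(e c : H), Z (e b : H)⟫_ℂ)‖
        ≤ ∑ c : Fin d, ∑ b : Fin d,
            ‖conj ⟪(e c : H), w⟫_ℂ * (⟪(e b : H), v⟫_ℂ * ⟪(e c : H), Z (e b : H)⟫_ℂ)‖ := by
          refine (norm_sum_le _ _).trans (Finset.sum_le_sum fun c _ => norm_sum_le _ _)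
      _ ≤ ∑ _c : Fin d, ∑ _b : Fin d, ‖w‖ * (‖v‖ * θ) := by
          refine Finset.sum_le_sum fun c _ => Finset.sum_le_sum fun b _ => ?_
          rw [norm_mul, norm_mul, RCLike.norm_conj]
          have hec : ‖(e c : H)‖ = 1 := by
            exact e.orthonormal.1 c
          have heb : ‖(e b : H)‖ = 1 := by
            exact e.orthonormal.1 b
          have h3 : ‖⟪(e c : H), w⟫_ℂ‖ ≤ ‖w‖ := by
            have := norm_inner_le_norm (𝕜 := ℂ) (e c : H) w
            rwa [hec, one_mul] at this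
          have h4 : ‖⟪(e b : H), v⟫_ℂ‖ ≤ ‖v‖ := by
            have := norm_inner_le_norm (𝕜 := ℂ) (e b : H) v
            rwa [heb, one_mul] at this
          exact mul_le_mul h3 (mul_le_mul h4 (h b c) (norm_nonneg _) (norm_nonneg _))
            (by positivity) (norm_nonneg _)
      _ = d ^ 2 * θ * ‖w‖ * ‖v‖ := by
          simp only [Finset.sum_const, Finset.card_univ, Fintype.card_fin, nsmul_eq_mul]
          ring
  refine ContinuousLinearMap.opNorm_le_bound _ (by positivity) fun v => ?_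
  set T := W.starProjection * Z * W.starProjection with hT
  by_cases h0 : T v = 0
  · rw [h0, norm_zero]; positivity
  have h1 := hform v (T v)
  rw [inner_self_eq_norm_sq_to_K] at h1
  have h2 : ‖T v‖ ^ 2 ≤ d ^ 2 * θ * ‖T v‖ * ‖v‖ := by simpa using h1
  have h3 : 0 < ‖T v‖ := norm_pos_iff.mpr h0
  have h4 : ‖T v‖ * ‖T v‖ ≤ (d ^ 2 * θ * ‖v‖) * ‖T v‖ := by nlinarith
  exact le_of_mul_le_mul_right h4 h3

/-- Coarse graining of a partition along a colouring. -/
noncomputable def coarse {ι : Type*} [Fintype ι] [DecidableEq ι] {r : ℕ} (κ : ι → Fin r)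
    (c : ι → H →L[ℂ] H) : Fin r → H →L[ℂ] H :=
  fun i => ∑ j with κ j = i, c j

section Coarse

variable {ι : Type*} [Fintype ι] [DecidableEq ι] {r : ℕ} {c : ι → H →L[ℂ] H}

theorem IsPartitionIn.sum_mul_sum (hc : IsPartitionIn A c) (s s' : Finset ι) :
    (∑ j ∈ s, c j) * (∑ j ∈ s', c j) = ∑ j ∈ s ∩ s', c j := by
  rw [Finset.sum_mul_sum]
  have h1 : ∀ j ∈ s, ∑ j' ∈ s', c j * c j' = if j ∈ s' then c j else 0 := by
    intro j _
    split_ifs with hj
    · rw [Finset.sum_eq_single j]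
      · exact (hc.isProj j).isIdempotentElem.eq
      · intro j' _ hj'
        exact hc.orth _ _ hj'.symm
      · intro h; exact absurd hj h
    · refine Finset.sum_eq_zero fun j' hj' => ?_
      refine hc.orth _ _ ?_
      rintro rfl
      exact hj hj'
  rw [Finset.sum_congr rfl h1, ← Finset.sum_filter, Finset.filter_mem_eq_inter]

theorem IsPartitionIn.coarse_isPartition (hc : IsPartitionIn A c) (κ : ι → Fin r) :
    IsPartitionIn A (coarse κ c) := by
  refine ⟨?_, ?_, ?_, ?_⟩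
  · intro i
    exact sum_mem fun j _ => hc.mem j
  · intro i
    refine ⟨?_, ?_⟩
    · change coarse κ c i * coarse κ c i = coarse κ c i
      unfold coarse
      rw [hc.sum_mul_sum, Finset.inter_self]
    · unfold coarse
      exact isSelfAdjoint_sum _ fun j _ => (hc.isProj j).isSelfAdjoint
  · intro i i' hii
    unfold coarse
    rw [hc.sum_mul_sum]
    have : (Finset.univ.filter (fun j => κ j = i)) ∩ (Finset.univ.filter (fun j => κ j = i')) = ∅ := by
      ext j
      simp only [Finset.mem_inter, Finset.mem_filter, Finset.mem_univ, true_and,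
        Finset.notMem_empty, iff_false, not_and]
      intro h1 h2
      exact hii (h1.symm.trans h2)
    rw [this, Finset.sum_empty]
  · unfold coarse
    rw [Finset.sum_fiberwise]
    exact hc.sum_eq_one

omit [CompleteSpace H] in
theorem pinching_coarse (κ : ι → Fin r) (c : ι → H →L[ℂ] H) (x : H →L[ℂ] H) :
    pinching (coarse κ c) x = ∑ j, ∑ j', if κ j = κ j' then c j * x * c j' else 0 := by
  unfold pinching coarse
  have h1 : ∀ i : Fin r, (∑ j with κ j = i, c j) * x * (∑ j with κ j = i, c j) =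
      ∑ j with κ j = i, ∑ j' with κ j' = κ j, c j * x * c j' := by
    intro i
    rw [Finset.sum_mul, Finset.sum_mul]
    refine Finset.sum_congr rfl fun j hj => ?_
    have hj' : κ j = i := (Finset.mem_filter.mp hj).2
    rw [hj', Finset.mul_sum]
  simp_rw [h1]
  rw [Finset.sum_fiberwise]
  refine Finset.sum_congr rfl fun j _ => ?_
  rw [Finset.sum_filter]
  refine Finset.sum_congr rfl fun j' _ => ?_
  simp only [eq_comm]

end Coarse

section Entries

variable {ι : Type*} [Fintype ι] [DecidableEq ι] {r : ℕ} {c : ι → H →L[ℂ] H}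

omit [DecidableEq ι] in
theorem IsPartitionIn.expand (hc : IsPartitionIn A c) (x : H →L[ℂ] H) :
    x = ∑ j, ∑ j', c j * x * c j' := by
  have h1 : x = (∑ j, c j) * x * (∑ j', c j') := by
    rw [hc.sum_eq_one, one_mul, mul_one]
  conv_lhs => rw [h1]
  rw [Finset.sum_mul, Finset.sum_mul]
  refine Finset.sum_congr rfl fun j _ => ?_
  rw [Finset.mul_sum]

/-- The key identity for one matrix entry. -/
theorem IsPartitionIn.entry_identity (hc : IsPartitionIn A c) (hr : 0 < r) (κ : ι → Fin r)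
    (x : H →L[ℂ] H) (v w : H) :
    ⟪w, pinching (coarse κ c) x v⟫_ℂ - ((1 / r : ℝ) : ℂ) * ⟪w, x v⟫_ℂ -
        ((1 - 1 / r : ℝ) : ℂ) * ⟪w, pinching c x v⟫_ℂ =
      ∑ π ∈ offPairs ι, (chi r κ π.1 π.2 : ℂ) * ⟪w, (c π.1 * x * c π.2) v⟫_ℂ := by
  have hr' : (r : ℂ) ≠ 0 := by exact_mod_cast hr.ne'
  set t : ι × ι → ℂ := fun π => ⟪w, (c π.1 * x * c π.2) v⟫_ℂ with ht
  have h1 : ⟪w, x v⟫_ℂ = ∑ π ∈ (Finset.univ : Finset ι).diag, t π + ∑ π ∈ offPairs ι, t π := by
    rw [← Finset.sum_union (Finset.disjoint_diag_offDiag _), Finset.diag_union_offDiag,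
      Finset.sum_product]
    conv_lhs => rw [hc.expand x]
    simp only [ContinuousLinearMap.sum_apply, inner_sum, ht]
  have h2 : ⟪w, pinching c x v⟫_ℂ = ∑ π ∈ (Finset.univ : Finset ι).diag, t π := by
    rw [Finset.sum_diag]
    simp only [pinching, ContinuousLinearMap.sum_apply, inner_sum, ht]
  have h3 : ⟪w, pinching (coarse κ c) x v⟫_ℂ =
      ∑ π ∈ (Finset.univ : Finset ι).diag, t π +
        ∑ π ∈ offPairs ι, (if κ π.1 = κ π.2 then 1 else 0) * t π := by
    have h4 : ∑ π ∈ (Finset.univ : Finset ι).diag, t π =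
        ∑ π ∈ (Finset.univ : Finset ι).diag, (if κ π.1 = κ π.2 then 1 else 0) * t π := by
      refine Finset.sum_congr rfl fun π hπ => ?_
      have : π.1 = π.2 := (Finset.mem_diag.mp hπ).2
      simp [this]
    rw [h4, ← Finset.sum_union (Finset.disjoint_diag_offDiag _), Finset.diag_union_offDiag,
      Finset.sum_product, pinching_coarse]
    simp only [ContinuousLinearMap.sum_apply, inner_sum, ht]
    refine Finset.sum_congr rfl fun j _ => Finset.sum_congr rfl fun j' _ => ?_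
    split_ifs <;> simp
  rw [h1, h2, h3]
  have h5 : ∑ π ∈ offPairs ι, (chi r κ π.1 π.2 : ℂ) * t π =
      ∑ π ∈ offPairs ι, (if κ π.1 = κ π.2 then 1 else 0) * t π -
        ((1 / r : ℝ) : ℂ) * ∑ π ∈ offPairs ι, t π := by
    rw [Finset.mul_sum, ← Finset.sum_sub_distrib]
    refine Finset.sum_congr rfl fun π _ => ?_
    unfold chi
    split_ifs <;> push_cast <;> ring
  rw [h5]
  push_cast
  ring

end Entries

section Main

variable {ι : Type*} [Fintype ι] [DecidableEq ι] {c : ι → H →L[ℂ] H}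

/-- The sum of squares of the off-diagonal entries is small when the cells are small on `w`. -/
theorem IsPartitionIn.sum_entries_le (hc : IsPartitionIn A c) (x : H →L[ℂ] H) (v w : H) {γ : ℝ}
    (hγ : 0 ≤ γ) (hw : ∀ j, ‖c j w‖ ≤ γ) :
    ∑ π ∈ offPairs ι, ‖⟪w, (c π.1 * x * c π.2) v⟫_ℂ‖ ^ 2 ≤ γ ^ 2 * (‖x‖ ^ 2 * ‖v‖ ^ 2) := by
  have h1 : ∑ π ∈ offPairs ι, ‖⟪w, (c π.1 * x * c π.2) v⟫_ℂ‖ ^ 2 ≤
      ∑ π ∈ (Finset.univ : Finset ι) ×ˢ (Finset.univ : Finset ι),
        ‖⟪w, (c π.1 * x * c π.2) v⟫_ℂ‖ ^ 2 := by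
    refine Finset.sum_le_sum_of_subset_of_nonneg ?_ fun _ _ _ => by positivity
    intro π hπ
    simp
  refine h1.trans ?_
  rw [Finset.sum_product_right]
  have h2 : ∀ j' : ι, ∑ j : ι, ‖⟪w, (c j * x * c j') v⟫_ℂ‖ ^ 2 ≤
      γ ^ 2 * (‖x‖ ^ 2 * ‖c j' v‖ ^ 2) := by
    intro j'
    set u : H := x (c j' v) with hu
    have h3 : ∀ j, ‖⟪w, (c j * x * c j') v⟫_ℂ‖ ^ 2 ≤ γ ^ 2 * ‖c j u‖ ^ 2 := by
      intro j
      have h4 : (c j * x * c j') v = c j u := by simp [hu]
      rw [h4]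
      have h5 : ⟪w, c j u⟫_ℂ = ⟪c j w, c j u⟫_ℂ := (inner_proj_self (hc.isProj j) w u).symm
      rw [h5, ← mul_pow]
      refine pow_le_pow_left₀ (norm_nonneg _) ?_ 2
      exact (norm_inner_le_norm _ _).trans
        (mul_le_mul_of_nonneg_right (hw j) (norm_nonneg _))
    refine (Finset.sum_le_sum fun j _ => h3 j).trans ?_
    rw [← Finset.mul_sum, hc.sum_norm_sq]
    refine mul_le_mul_of_nonneg_left ?_ (by positivity)
    rw [← mul_pow]
    exact pow_le_pow_left₀ (norm_nonneg _) (x.le_opNorm _) 2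
  refine (Finset.sum_le_sum fun j' _ => h2 j').trans ?_
  rw [← Finset.mul_sum, ← Finset.mul_sum, hc.sum_norm_sq]

end Main

theorem norm_compress_self_le {q : H →L[ℂ] H} (hq : IsStarProjection q) (x : H →L[ℂ] H) :
    ‖q * x * q‖ ≤ ‖x‖ := by
  refine ContinuousLinearMap.opNorm_le_bound _ (norm_nonneg _) fun v => ?_
  have h1 : (q * x * q) v = q (x (q v)) := by simp
  rw [h1]
  refine (proj_norm_le hq _).trans ((x.le_opNorm _).trans ?_)
  exact mul_le_mul_of_nonneg_left (proj_norm_le hq v) (norm_nonneg _)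

/-- **Upper bound.** For a diffuse MASA of `B(H)`, every self-adjoint operator is `(ε, r)`
so-pavable as soon as `r ε > 1`. -/
theorem soPavable_of_one_lt (hA : IsMasa A) (hd : IsDiffuse A) {x : H →L[ℂ] H}
    (hx : IsSelfAdjoint x) {r : ℕ} (hr : 0 < r) {ε : ℝ} (hε : 1 < r * ε) :
    SoPavable A ε r x := by
  classical
  intro F δ hδ
  obtain ⟨a, haA, has, han, hlim⟩ := hA.exists_limit_partition hd hx
  have hr0 : (0 : ℝ) < r := by exact_mod_cast hr
  have hr1 : (1 : ℝ) / r ≤ 1 := by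
    rw [div_le_one hr0]; exact_mod_cast hr
  have hε' : 1 / (r : ℝ) < ε := by
    rw [div_lt_iff₀ hr0]; linarith
  -- the compression
  let W : Submodule ℂ H := Submodule.span ℂ (F : Set H)
  have : FiniteDimensional ℂ W := FiniteDimensional.span_finset ℂ F
  have : W.HasOrthogonalProjection := inferInstance
  let d : ℕ := Module.finrank ℂ W
  let e : OrthonormalBasis (Fin d) ℂ W := stdOrthonormalBasis ℂ W
  have hen : ∀ b, ‖(e b : H)‖ = 1 := fun b => e.orthonormal.1 b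
  let q : H →L[ℂ] H := W.starProjection
  have hq : IsStarProjection q := isStarProjection_starProjection
  have hqF : ∀ ξ ∈ F, ‖(1 - q) ξ‖ < δ := by
    intro ξ hξ
    have h1 : q ξ = ξ := Submodule.starProjection_eq_self_iff.mpr (Submodule.subset_span hξ)
    have h2 : (1 - q) ξ = 0 := by simp [h1]
    rw [h2, norm_zero]
    exact hδ
  -- the element of the MASA
  let a' : H →L[ℂ] H := ((1 - 1 / r : ℝ) : ℂ) • a
  have ha'A : a' ∈ A := A.smul_mem haA _
  have ha's : IsSelfAdjoint a' := by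
    change IsSelfAdjoint (((1 - 1 / r : ℝ) : ℂ) • a)
    rw [isSelfAdjoint_iff, star_smul, has.star_eq]
    simp
  have ha'n : ‖a'‖ ≤ ‖x‖ := by
    change ‖((1 - 1 / r : ℝ) : ℂ) • a‖ ≤ ‖x‖
    rw [norm_smul, Complex.norm_real, Real.norm_eq_abs, abs_of_nonneg (by linarith)]
    have h3 : 0 < 1 / (r : ℝ) := by positivity
    nlinarith [norm_nonneg a, norm_nonneg x]
  by_cases hx0 : x = 0
  · -- the trivial case
    subst hx0
    have ha0 : a = 0 := by
      have : ‖a‖ ≤ 0 := by simpa using han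
      exact norm_le_zero_iff.mp this
    obtain ⟨n, c, hc, -, -⟩ := hlim ∅ 1 1 one_pos one_pos
    refine ⟨coarse (fun _ => ⟨0, hr⟩) c, hc.coarse_isPartition _, a', ha'A, ha's, ha'n, q, hq, hqF, ?_⟩
    have hp0 : ∀ P : Fin r → (H →L[ℂ] H), pinching P 0 = 0 := by
      intro P; simp [pinching]
    have ha'0 : a' = 0 := by
      change ((1 - 1 / r : ℝ) : ℂ) • a = 0
      rw [ha0, smul_zero]
    rw [hp0, ha'0]
    simp
  -- the main case
  have hxpos : 0 < ‖x‖ := norm_pos_iff.mpr hx0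
  set η : ℝ := (ε - 1 / r) * ‖x‖ with hη
  have hηpos : 0 < η := mul_pos (by linarith) hxpos
  have hd1 : (0 : ℝ) < (d : ℝ) + 1 := by positivity
  set θ : ℝ := η / ((d : ℝ) + 1) ^ 2 with hθ
  have hθpos : 0 < θ := by positivity
  set γ : ℝ := θ / (4 * ((d : ℝ) + 1) * ‖x‖) with hγ
  have hγpos : 0 < γ := by positivity
  let V : Finset H := Finset.univ.image fun b => (e b : H)
  have hV : ∀ b, (e b : H) ∈ V := fun b => Finset.mem_image_of_mem _ (Finset.mem_univ b)
  obtain ⟨n, c, hc, hfine, hclose⟩ := hlim V γ (θ / 2) hγpos (by positivity)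
  -- the colouring
  let t : Fin d × Fin d → Fin n × Fin n → ℂ := fun l π =>
    ⟪(e l.2 : H), (c π.1 * x * c π.2) (e l.1 : H)⟫_ℂ
  obtain ⟨κ, hκ⟩ := exists_coloring hr t
  have hsmall : ∀ l, ‖∑ π ∈ offPairs (Fin n), (chi r κ π.1 π.2 : ℂ) * t l π‖ ≤ θ / 2 := by
    intro l
    have h1 : ‖∑ π ∈ offPairs (Fin n), (chi r κ π.1 π.2 : ℂ) * t l π‖ ^ 2 ≤
        ∑ l, ‖∑ π ∈ offPairs (Fin n), (chi r κ π.1 π.2 : ℂ) * t l π‖ ^ 2 :=
      Finset.single_le_sum
        (f := fun l => ‖∑ π ∈ offPairs (Fin n), (chi r κ π.1 π.2 : ℂ) * t l π‖ ^ 2)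
        (fun _ _ => by positivity) (Finset.mem_univ l)
    have h2 : ∑ l, ∑ π ∈ offPairs (Fin n), ‖t l π‖ ^ 2 ≤ (d : ℝ) ^ 2 * (γ ^ 2 * ‖x‖ ^ 2) := by
      have h3 : ∀ l : Fin d × Fin d, ∑ π ∈ offPairs (Fin n), ‖t l π‖ ^ 2 ≤ γ ^ 2 * ‖x‖ ^ 2 := by
        intro l
        have h4 := hc.sum_entries_le x (e l.1 : H) (e l.2 : H) hγpos.le
          (fun j => hfine j _ (hV l.2))
        rw [hen, one_pow, mul_one] at h4
        exact h4
      refine (Finset.sum_le_sum fun l _ => h3 l).trans ?_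
      simp only [Finset.sum_const, Finset.card_univ, Fintype.card_prod, Fintype.card_fin,
        nsmul_eq_mul]
      push_cast
      apply le_of_eq
      ring
    have h5 : ‖∑ π ∈ offPairs (Fin n), (chi r κ π.1 π.2 : ℂ) * t l π‖ ^ 2 ≤ (θ / 2) ^ 2 := by
      refine h1.trans (hκ.trans ((mul_le_mul_of_nonneg_left h2 (by norm_num)).trans ?_))
      have h6 : γ * (4 * ((d : ℝ) + 1) * ‖x‖) = θ := by
        rw [hγ]; field_simp
      have h7 : (θ / 2) ^ 2 = (γ * (4 * ((d : ℝ) + 1) * ‖x‖) / 2) ^ 2 := by rw [h6]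
      rw [h7]
      have h8 : 0 ≤ (γ * ‖x‖) ^ 2 := by positivity
      have h9 : (d : ℝ) ^ 2 ≤ ((d : ℝ) + 1) ^ 2 := by
        have : (0 : ℝ) ≤ d := Nat.cast_nonneg d
        nlinarith
      have h10 : (γ * (4 * ((d : ℝ) + 1) * ‖x‖) / 2) ^ 2 = 4 * (((d : ℝ) + 1) ^ 2 * (γ * ‖x‖) ^ 2) := by
        ring
      rw [h10]
      have h11 : 2 * ((d : ℝ) ^ 2 * (γ ^ 2 * ‖x‖ ^ 2)) = 2 * ((d : ℝ) ^ 2 * (γ * ‖x‖) ^ 2) := by
        ring
      rw [h11]
      nlinarith [mul_le_mul_of_nonneg_right h9 h8, mul_nonneg (sq_nonneg ((d : ℝ) + 1)) h8]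
    exact (pow_le_pow_iff_left₀ (norm_nonneg _) (by positivity) (by norm_num)).mp h5
  refine ⟨coarse κ c, hc.coarse_isPartition κ, a', ha'A, ha's, ha'n, q, hq, hqF, ?_⟩
  -- the entries of the error
  set Z : H →L[ℂ] H := pinching (coarse κ c) x - a' - ((1 / r : ℝ) : ℂ) • x with hZ
  have hentry : ∀ b c', ‖⟪(e c' : H), Z (e b : H)⟫_ℂ‖ ≤ θ := by
    intro b c'
    have h1 := hc.entry_identity hr κ x (e b : H) (e c' : H)
    have hDs : IsSelfAdjoint (pinching c x) := hc.pinching_isSelfAdjoint hx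
    have h2 : ⟪(e c' : H), Z (e b : H)⟫_ℂ =
        (∑ π ∈ offPairs (Fin n), (chi r κ π.1 π.2 : ℂ) * t (b, c') π) +
          ((1 - 1 / r : ℝ) : ℂ) * (⟪(e c' : H), pinching c x (e b : H)⟫_ℂ -
            ⟪(e c' : H), a (e b : H)⟫_ℂ) := by
      have h3 : ∑ π ∈ offPairs (Fin n), (chi r κ π.1 π.2 : ℂ) * t (b, c') π =
          ∑ π ∈ offPairs (Fin n), (chi r κ π.1 π.2 : ℂ) *
            ⟪(e c' : H), (c π.1 * x * c π.2) (e b : H)⟫_ℂ := rfl
      rw [h3, ← h1, hZ]
      simp only [ContinuousLinearMap.sub_apply, ContinuousLinearMap.smul_apply, inner_sub_right,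
        inner_smul_right]
      have h4 : a' (e b : H) = ((1 - 1 / r : ℝ) : ℂ) • a (e b : H) := rfl
      rw [h4, inner_smul_right]
      ring
    rw [h2]
    have h5 := hclose _ (hV c') _ (hV b)
    rw [inner_selfAdjoint hDs, inner_selfAdjoint has] at h5
    have h6 : ‖((1 - 1 / r : ℝ) : ℂ) * (⟪(e c' : H), pinching c x (e b : H)⟫_ℂ -
            ⟪(e c' : H), a (e b : H)⟫_ℂ)‖ ≤ θ / 2 := by
      rw [norm_mul, Complex.norm_real, Real.norm_eq_abs, abs_of_nonneg (by linarith)]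
      have h7 : 0 < 1 / (r : ℝ) := by positivity
      nlinarith [norm_nonneg (⟪(e c' : H), pinching c x (e b : H)⟫_ℂ -
            ⟪(e c' : H), a (e b : H)⟫_ℂ)]
    calc _ ≤ _ := norm_add_le _ _
      _ ≤ θ / 2 + θ / 2 := add_le_add (hsmall (b, c')) h6
      _ = θ := by ring
  have hcomp : ‖q * Z * q‖ ≤ (d : ℝ) ^ 2 * θ := norm_compress_le e Z hθpos.le hentry
  have hcomp' : ‖q * Z * q‖ ≤ η := by
    refine hcomp.trans ?_
    have h1 : ((d : ℝ) + 1) ^ 2 * θ = η := by
      rw [hθ]; field_simp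
    rw [← h1]
    refine mul_le_mul_of_nonneg_right ?_ hθpos.le
    have : (0 : ℝ) ≤ d := Nat.cast_nonneg d
    nlinarith
  have hsplit : q * (pinching (coarse κ c) x - a') * q =
      q * Z * q + ((1 / r : ℝ) : ℂ) • (q * x * q) := by
    have h1 : pinching (coarse κ c) x - a' = Z + ((1 / r : ℝ) : ℂ) • x := by
      rw [hZ]; abel
    rw [h1, mul_add, add_mul, mul_smul_comm, smul_mul_assoc]
  rw [hsplit]
  calc _ ≤ ‖q * Z * q‖ + ‖((1 / r : ℝ) : ℂ) • (q * x * q)‖ := norm_add_le _ _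
    _ ≤ η + (1 / r) * ‖x‖ := by
        refine add_le_add hcomp' ?_
        rw [norm_smul, Complex.norm_real, Real.norm_eq_abs, abs_of_pos (by positivity)]
        exact mul_le_mul_of_nonneg_left (norm_compress_self_le hq x) (by positivity)
    _ = ε * ‖x‖ := by rw [hη]; ring

end Vale.Agent.Lib.P078
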